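import Mathlib

/-! Definitions for the continuum phase-transition problem. -/

namespace Vale.Agent.P171

open MeasureTheory

/-- Three-dimensional Euclidean space. -/
abbrev E3 : Type := EuclideanSpace ℝ (Fin 3)

/-- The pair energy `U_N`. -/
noncomputable def U (φ : ℝ → ℝ) {N : ℕ} (x : Fin N → E3) : ℝ :=
  ∑ i, ∑ j, if i < j then φ ‖x i - x j‖ else 0

/-- Local boundedness on `(0, ∞)`. -/
def LocBounded (φ : ℝ → ℝ) : Prop :=
  ∀ a b : ℝ, 0 < a → ∃ C : ℝ, ∀ r ∈ Set.Icc a b, |φ r| ≤ C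

/-- Stability. -/
def Stable (φ : ℝ → ℝ) : Prop :=
  ∃ B : ℝ, ∀ (N : ℕ) (x : Fin N → E3), Function.Injective x → -B * N ≤ U φ x

/-- Temperedness. -/
def Tempered (φ : ℝ → ℝ) : Prop :=
  ∃ C ε R₀ : ℝ, 0 < C ∧ 0 < ε ∧ 0 < R₀ ∧ ∀ r : ℝ, R₀ ≤ r → φ r ≤ C * r ^ (-3 - ε)

/-- The box `[0, L]^3`. -/
def box (L : ℝ) : Set E3 := {x | ∀ i, x i ∈ Set.Icc 0 L}

/-- The region `Λ_L^N` of labelled configurations. -/
def boxN (L : ℝ) (N : ℕ) : Set (Fin N → E3) := {x | ∀ i, x i ∈ box L}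

/-- The canonical partition function `Z_{L,N}(β)`. -/
noncomputable def Z (φ : ℝ → ℝ) (β L : ℝ) (N : ℕ) : ℝ :=
  (N.factorial : ℝ)⁻¹ * ∫ x in boxN L N, Real.exp (-β * U φ x)

end Vale.Agent.P171
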