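import Mathlib

/-! Grand-canonical sums as exponentials of an insertion operator. -/

namespace Vale.Agent.P171

open MeasureTheory Finset
open scoped ENNReal Nat

variable {E : Type*}

/-- The configuration of a labelled family of points. -/
def cfg {N : ℕ} (x : Fin N → E) : Multiset E := Finset.univ.val.map x

theorem cfg_cons {N : ℕ} (y : E) (x : Fin N → E) :
    cfg (Fin.cons y x : Fin (N + 1) → E) = y ::ₘ cfg x := by
  simp [cfg, Fin.univ_val_map, List.ofFn_succ]

theorem cfg_surj (m : Multiset E) : ∃ (N : ℕ) (x : Fin N → E), cfg x = m := by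
  induction m using Multiset.induction_on with
  | empty => exact ⟨0, Fin.elim0, by simp [cfg]⟩
  | cons y m ih =>
    obtain ⟨N, x, rfl⟩ := ih
    exact ⟨N + 1, Fin.cons y x, cfg_cons y x⟩

theorem card_cfg {N : ℕ} (x : Fin N → E) : (cfg x).card = N := by simp [cfg]

variable [MeasurableSpace E]

/-- Measurability of a function of configurations. -/
def Meas (H : Multiset E → ℝ≥0∞) : Prop := ∀ N, Measurable fun x : Fin N → E => H (cfg x)

theorem measurable_cons {α : Type*} [MeasurableSpace α] {N : ℕ} {f : α → E} {g : α → Fin N → E}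
    (hf : Measurable f) (hg : Measurable g) :
    Measurable fun a => (Fin.cons (f a) (g a) : Fin (N + 1) → E) := by
  refine measurable_pi_iff.2 fun i => ?_
  refine Fin.cases ?_ (fun j => ?_) i
  · simpa using hf
  · simpa [Function.comp_def] using (measurable_pi_apply j).comp hg

variable {H F G : Multiset E → ℝ≥0∞}

theorem Meas.comp (hH : Meas H) {α : Type*} [MeasurableSpace α] {N : ℕ} {f : α → E}
    {g : α → Fin N → E} (hf : Measurable f) (hg : Measurable g) :
    Measurable fun a => H (f a ::ₘ cfg (g a)) := by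
  simpa only [Function.comp_def, cfg_cons] using (hH (N + 1)).comp (measurable_cons hf hg)

theorem Meas.cons (hH : Meas H) (m : Multiset E) : Measurable fun y => H (y ::ₘ m) := by
  obtain ⟨N, x, rfl⟩ := cfg_surj m
  exact hH.comp measurable_id measurable_const

theorem Meas.cons₂ (hH : Meas H) (m : Multiset E) :
    Measurable fun p : E × E => H (p.1 ::ₘ p.2 ::ₘ m) := by
  obtain ⟨N, x, rfl⟩ := cfg_surj m
  simpa only [cfg_cons] using
    hH.comp measurable_fst (measurable_cons measurable_snd (measurable_const (a := x)))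

theorem Meas.shift (hH : Meas H) (y : E) : Meas fun m => H (y ::ₘ m) := fun _ =>
  hH.comp measurable_const measurable_id

theorem Meas.const_mul (hH : Meas H) (c : ℝ≥0∞) : Meas fun m => c * H m := fun N =>
  (hH N).const_mul c

theorem Meas.add (hH : Meas H) (hG : Meas G) : Meas fun m => H m + G m := fun N =>
  (hH N).add (hG N)

/-- The insertion operator. -/
noncomputable def T (ν : Measure E) (H : Multiset E → ℝ≥0∞) : Multiset E → ℝ≥0∞ :=
  fun m => ∫⁻ y, H (y ::ₘ m) ∂ν

variable {ν ν₁ ν₂ : Measure E}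

theorem Meas.T [SFinite ν] (hH : Meas H) : Meas (T ν H) := fun N =>
  Measurable.lintegral_prod_right' (f := fun p : (Fin N → E) × E => H (p.2 ::ₘ cfg p.1))
    (hH.comp measurable_snd measurable_fst)

theorem Meas.iter [SFinite ν] (hH : Meas H) (n : ℕ) : Meas ((P171.T ν)^[n] H) := by
  induction n with
  | zero => exact hH
  | succ n ih => rw [Function.iterate_succ_apply']; exact ih.T

theorem T_comm [SFinite ν₁] [SFinite ν₂] (hH : Meas H) : T ν₁ (T ν₂ H) = T ν₂ (T ν₁ H) := by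
  funext m
  simp only [T]
  rw [lintegral_lintegral_swap]
  · simp only [Multiset.cons_swap]
  · exact ((hH.cons₂ m).comp measurable_swap).aemeasurable

theorem iter_mono {A : Set E} (hA : ∀ᵐ y ∂ν, y ∈ A) (n : ℕ) {m m₀ : Multiset E}
    (h : ∀ m' : Multiset E, (∀ x ∈ m', x ∈ A) → m'.card = n → H (m' + m) ≤ G (m' + m₀)) :
    (T ν)^[n] H m ≤ (T ν)^[n] G m₀ := by
  induction n generalizing m m₀ with
  | zero => simpa using h 0 (by simp) rfl
  | succ n ih =>
    rw [Function.iterate_succ_apply', Function.iterate_succ_apply']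
    refine lintegral_mono_ae (hA.mono fun y hy => ih fun m' hm' hc => ?_)
    have := h (y ::ₘ m') (fun x hx => by
      rcases Multiset.mem_cons.1 hx with rfl | hx
      · exact hy
      · exact hm' x hx) (by simp [hc])
    simpa only [Multiset.cons_add, Multiset.add_cons] using this

theorem iter_const_mul [SFinite ν] (hH : Meas H) (c : ℝ≥0∞) (n : ℕ) :
    (T ν)^[n] (fun m => c * H m) = fun m => c * (T ν)^[n] H m := by
  induction n with
  | zero => rfl
  | succ n ih =>
    rw [Function.iterate_succ_apply', Function.iterate_succ_apply', ih]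
    funext m
    exact lintegral_const_mul c ((hH.iter n).cons m)

theorem iter_add [SFinite ν] (hH : Meas H) (G : Multiset E → ℝ≥0∞) (n : ℕ) :
    (T ν)^[n] (fun m => H m + G m) = fun m => (T ν)^[n] H m + (T ν)^[n] G m := by
  induction n with
  | zero => rfl
  | succ n ih =>
    rw [Function.iterate_succ_apply', Function.iterate_succ_apply',
      Function.iterate_succ_apply', ih]
    funext m
    exact lintegral_add_left ((hH.iter n).cons m) _

theorem iter_mono_measure (h : ν₁ ≤ ν₂) (n : ℕ) (m : Multiset E) :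
    (T ν₁)^[n] H m ≤ (T ν₂)^[n] H m := by
  induction n generalizing m with
  | zero => exact le_rfl
  | succ n ih =>
    rw [Function.iterate_succ_apply', Function.iterate_succ_apply']
    exact lintegral_mono' h fun y => ih _

theorem iter_const (c : ℝ≥0∞) (n : ℕ) :
    (T ν)^[n] (fun _ => c) = fun _ => c * ν Set.univ ^ n := by
  induction n with
  | zero => simp
  | succ n ih =>
    rw [Function.iterate_succ_apply', ih]
    funext m
    simp [T, pow_succ, mul_assoc]

theorem iter_cons (y : E) (n : ℕ) (m : Multiset E) :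
    (T ν)^[n] H (y ::ₘ m) = (T ν)^[n] (fun m => H (y ::ₘ m)) m := by
  induction n generalizing m with
  | zero => rfl
  | succ n ih =>
    rw [Function.iterate_succ_apply', Function.iterate_succ_apply']
    simp only [T]
    refine lintegral_congr fun z => ?_
    rw [Multiset.cons_swap, ih]

theorem iter_eq_lintegral [SigmaFinite ν] (hH : Meas H) (n : ℕ) :
    (T ν)^[n] H 0 = ∫⁻ x, H (cfg x) ∂(Measure.pi fun _ : Fin n => ν) := by
  induction n generalizing H with
  | zero => simp [cfg]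
  | succ n ih =>
    rw [Function.iterate_succ_apply']
    have h1 := (measurePreserving_piFinSuccAbove (fun _ : Fin (n + 1) => ν) 0).symm
    rw [← h1.lintegral_comp (hH (n + 1)), lintegral_prod
      (fun a => H (cfg ((MeasurableEquiv.piFinSuccAbove (fun _ => E) 0).symm a)))
      ((hH (n + 1)).comp (MeasurableEquiv.measurable _)).aemeasurable]
    refine lintegral_congr fun y => ?_
    rw [iter_cons, ih (hH.shift y)]
    refine lintegral_congr fun x => ?_
    rw [← cfg_cons]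
    simp [MeasurableEquiv.piFinSuccAbove, Fin.consEquiv]

theorem iter_map {E' : Type*} [MeasurableSpace E'] {τ : E → E'} {ν' : Measure E'} [SFinite ν']
    (hτ : MeasurePreserving τ ν ν') {H : Multiset E' → ℝ≥0∞} (hH : Meas H) (n : ℕ)
    (m : Multiset E) :
    (T ν')^[n] H (m.map τ) = (T ν)^[n] (fun m => H (m.map τ)) m := by
  induction n generalizing m with
  | zero => rfl
  | succ n ih =>
    rw [Function.iterate_succ_apply', Function.iterate_succ_apply']
    simp only [T]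
    rw [← hτ.lintegral_comp ((hH.iter n).cons _)]
    refine lintegral_congr fun y => ?_
    rw [← ih, Multiset.map_cons]

/-- The measurable functions of configurations. -/
def MM (E : Type*) [MeasurableSpace E] : AddSubmonoid (Multiset E → ℝ≥0∞) where
  carrier := {H | Meas H}
  add_mem' := fun h1 h2 => Meas.add h1 h2
  zero_mem' := fun _ => measurable_const

/-- The insertion operator as an additive endomorphism. -/
noncomputable def TE (ν : Measure E) [SFinite ν] : AddMonoid.End (MM E) where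
  toFun H := ⟨T ν H.1, Meas.T H.2⟩
  map_zero' := Subtype.ext (funext fun m => by simp [T])
  map_add' H G := Subtype.ext (funext fun m => lintegral_add_left (Meas.cons H.2 m) _)

theorem TE_pow [SFinite ν] (n : ℕ) (H : MM E) : ((TE ν ^ n) H).1 = (T ν)^[n] H.1 := by
  induction n with
  | zero => rfl
  | succ n ih => rw [pow_succ', Function.iterate_succ_apply', ← ih]; rfl

theorem iter_binom [SFinite ν₁] [SFinite ν₂] (hH : Meas H) (n : ℕ) :
    (T (ν₁ + ν₂))^[n] H 0 =
      ∑ p ∈ antidiagonal n, (n.choose p.1 : ℝ≥0∞) * (T ν₁)^[p.1] ((T ν₂)^[p.2] H) 0 := by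
  have h1 : TE (ν₁ + ν₂) = TE ν₁ + TE ν₂ :=
    AddMonoidHom.ext fun H => Subtype.ext (funext fun m => lintegral_add_measure _ _ _)
  have h2 : Commute (TE ν₁) (TE ν₂) := AddMonoidHom.ext fun H => Subtype.ext (T_comm H.2)
  have h3 := TE_pow (ν := ν₁ + ν₂) n ⟨H, hH⟩
  rw [h1, h2.add_pow'] at h3
  rw [← h3]
  let ev : AddMonoid.End (MM E) →+ ℝ≥0∞ :=
    { toFun := fun f => (f ⟨H, hH⟩).1 0
      map_zero' := rfl
      map_add' := fun _ _ => rfl }
  change ev _ = _
  rw [map_sum]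
  refine sum_congr rfl fun p _ => ?_
  rw [map_nsmul, nsmul_eq_mul]
  congr 1
  change ((TE ν₁ ^ p.1) ((TE ν₂ ^ p.2) ⟨H, hH⟩)).1 0 = _
  rw [TE_pow, TE_pow]

/-- The grand-canonical sum. -/
noncomputable def Xi (ν : Measure E) (H : Multiset E → ℝ≥0∞) : ℝ≥0∞ :=
  ∑' n : ℕ, ((n ! : ℝ≥0∞))⁻¹ * (T ν)^[n] H 0

theorem Xi_add [SFinite ν₁] [SFinite ν₂] (hH : Meas H) :
    Xi (ν₁ + ν₂) H = ∑' k : ℕ, ∑' l : ℕ,
      ((k ! : ℝ≥0∞))⁻¹ * ((l ! : ℝ≥0∞))⁻¹ * (T ν₁)^[k] ((T ν₂)^[l] H) 0 := by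
  rw [← ENNReal.tsum_prod, ← (HasAntidiagonal.sigmaAntidiagonalEquivProd (A := ℕ)).tsum_eq,
    ENNReal.tsum_sigma', Xi]
  refine tsum_congr fun n => ?_
  rw [iter_binom hH, mul_sum, tsum_fintype]
  simp only [HasAntidiagonal.sigmaAntidiagonalEquivProd_apply]
  rw [sum_coe_sort (antidiagonal n) fun p : ℕ × ℕ =>
    ((p.1 ! : ℝ≥0∞))⁻¹ * ((p.2 ! : ℝ≥0∞))⁻¹ * (T ν₁)^[p.1] ((T ν₂)^[p.2] H) 0]
  refine sum_congr rfl fun p hp => ?_
  rw [← mul_assoc]
  congr 1
  have h1 := mem_antidiagonal.1 hp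
  have h2 : n.choose p.1 * p.1 ! * p.2 ! = n ! := by
    rw [← h1, add_comm]; exact Nat.add_choose_mul_factorial_mul_factorial p.2 p.1 ▸ by ring
  have h3 : (n ! : ℝ≥0∞) = n.choose p.1 * (p.1 ! * p.2 !) := by
    rw [← h2]; push_cast; ring
  have h4 : (n.choose p.1 : ℝ≥0∞) ≠ 0 := by
    exact_mod_cast (Nat.choose_pos (by omega : p.1 ≤ n)).ne'
  have h5 : ∀ k : ℕ, (k ! : ℝ≥0∞) ≠ 0 := fun k => by exact_mod_cast k.factorial_ne_zero
  rw [h3, ENNReal.mul_inv (Or.inl h4) (Or.inl (ENNReal.natCast_ne_top _)),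
    ENNReal.mul_inv (Or.inl (h5 _)) (Or.inl (ENNReal.natCast_ne_top _)), mul_right_comm,
    ENNReal.inv_mul_cancel h4 (ENNReal.natCast_ne_top _), one_mul]

theorem Xi_mul [SFinite ν₁] [SFinite ν₂] (hF : Meas F) (G : Multiset E → ℝ≥0∞) :
    Xi ν₁ F * Xi ν₂ G = ∑' k : ℕ, ∑' l : ℕ, ((k ! : ℝ≥0∞))⁻¹ * ((l ! : ℝ≥0∞))⁻¹ *
      (T ν₁)^[k] (fun m => (T ν₂)^[l] G 0 * F m) 0 := by
  simp only [Xi, iter_const_mul hF]
  rw [← ENNReal.tsum_mul_right]
  refine tsum_congr fun k => ?_
  rw [← ENNReal.tsum_mul_left]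
  exact tsum_congr fun l => by ring

theorem Xi_le_mul [SFinite ν₁] [SFinite ν₂] {A B : Set E} (hA : ∀ᵐ y ∂ν₁, y ∈ A)
    (hB : ∀ᵐ y ∂ν₂, y ∈ B) (hH : Meas H) (hF : Meas F) (hG : Meas G)
    (h : ∀ m m' : Multiset E, (∀ x ∈ m, x ∈ A) → (∀ x ∈ m', x ∈ B) → H (m' + m) ≤ F m * G m') :
    Xi (ν₁ + ν₂) H ≤ Xi ν₁ F * Xi ν₂ G := by
  rw [Xi_add hH, Xi_mul hF]
  refine ENNReal.tsum_le_tsum fun k => ENNReal.tsum_le_tsum fun l => mul_le_mul_right ?_ _
  refine iter_mono hA k fun m hm _ => ?_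
  have h1 := congrFun (iter_const_mul (ν := ν₂) hG (F m) l) 0
  rw [add_zero, mul_comm, ← h1]
  exact iter_mono hB l fun m' hm' _ => by simpa using h m m' hm hm'

theorem mul_le_Xi [SFinite ν₁] [SFinite ν₂] {A B : Set E} (hA : ∀ᵐ y ∂ν₁, y ∈ A)
    (hB : ∀ᵐ y ∂ν₂, y ∈ B) (hH : Meas H) (hF : Meas F) (hG : Meas G)
    (h : ∀ m m' : Multiset E, (∀ x ∈ m, x ∈ A) → (∀ x ∈ m', x ∈ B) → F m * G m' ≤ H (m' + m)) :
    Xi ν₁ F * Xi ν₂ G ≤ Xi (ν₁ + ν₂) H := by
  rw [Xi_add hH, Xi_mul hF]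
  refine ENNReal.tsum_le_tsum fun k => ENNReal.tsum_le_tsum fun l => mul_le_mul_right ?_ _
  refine iter_mono hA k fun m hm _ => ?_
  have h1 := congrFun (iter_const_mul (ν := ν₂) hG (F m) l) 0
  rw [add_zero, mul_comm, ← h1]
  exact iter_mono hB l fun m' hm' _ => by simpa using h m m' hm hm'

theorem Xi_mono {A : Set E} (hA : ∀ᵐ y ∂ν, y ∈ A)
    (h : ∀ m : Multiset E, (∀ x ∈ m, x ∈ A) → H m ≤ G m) : Xi ν H ≤ Xi ν G :=
  ENNReal.tsum_le_tsum fun n => mul_le_mul_right
    (iter_mono hA n fun m hm _ => by simpa using h m hm) _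

theorem Xi_mono_measure (h : ν₁ ≤ ν₂) : Xi ν₁ H ≤ Xi ν₂ H :=
  ENNReal.tsum_le_tsum fun n => mul_le_mul_right (iter_mono_measure h n 0) _

theorem Xi_const_mul [SFinite ν] (hH : Meas H) (c : ℝ≥0∞) :
    Xi ν (fun m => c * H m) = c * Xi ν H := by
  simp only [Xi, iter_const_mul hH, ← ENNReal.tsum_mul_left]
  exact tsum_congr fun n => by ring

theorem Xi_add_fun [SFinite ν] (hH : Meas H) (G : Multiset E → ℝ≥0∞) :
    Xi ν (fun m => H m + G m) = Xi ν H + Xi ν G := by
  simp only [Xi, iter_add hH, mul_add, ENNReal.tsum_add]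

theorem Xi_sum [SFinite ν] {κ : Type*} (s : Finset κ) {H : κ → Multiset E → ℝ≥0∞}
    (hH : ∀ k, Meas (H k)) : Xi ν (fun m => ∑ k ∈ s, H k m) = ∑ k ∈ s, Xi ν (H k) := by
  classical
  induction s using Finset.induction_on with
  | empty => simp [Xi, iter_const]
  | insert k s hk ih => simp only [sum_insert hk]; rw [Xi_add_fun (hH k), ih]

theorem Xi_map {E' : Type*} [MeasurableSpace E'] {τ : E → E'} {ν' : Measure E'} [SFinite ν']
    (hτ : MeasurePreserving τ ν ν') {H : Multiset E' → ℝ≥0∞} (hH : Meas H) :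
    Xi ν' H = Xi ν fun m => H (m.map τ) :=
  tsum_congr fun n => by rw [← iter_map hτ hH, Multiset.map_zero]

theorem le_Xi (n : ℕ) : ((n ! : ℝ≥0∞))⁻¹ * (T ν)^[n] H 0 ≤ Xi ν H :=
  ENNReal.le_tsum (f := fun n : ℕ => ((n ! : ℝ≥0∞))⁻¹ * (T ν)^[n] H 0) n

end Vale.Agent.P171
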