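import Vale.Agent.P171.Pair
import Vale.Agent.P171.Defs

/-! Cubes, blocks and counting. -/

namespace Vale.Agent.P171

open MeasureTheory Finset Real
open scoped ENNReal

/-- Closed cube with corner `a` and side `ℓ`. -/
def cube (a : Fin 3 → ℝ) (ℓ : ℝ) : Set E3 := {x | ∀ i, x i ∈ Set.Icc (a i) (a i + ℓ)}

theorem box_eq (L : ℝ) : box L = cube 0 L := by
  ext x; simp [box, cube]

theorem meas_coord (i : Fin 3) : Measurable fun x : E3 => x i := by fun_prop

theorem meas_cube (a : Fin 3 → ℝ) (ℓ : ℝ) : MeasurableSet (cube a ℓ) := by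
  have : cube a ℓ = ⋂ i, (fun x : E3 => x i) ⁻¹' Set.Icc (a i) (a i + ℓ) := by
    ext x; simp only [cube, Set.mem_ofPred_eq, Set.mem_iInter, Set.mem_preimage]
  rw [this]
  exact MeasurableSet.iInter fun i => meas_coord i measurableSet_Icc

theorem vol_cube (a : Fin 3 → ℝ) (ℓ : ℝ) : volume (cube a ℓ) = ENNReal.ofReal ℓ ^ 3 := by
  have : cube a ℓ = (WithLp.ofLp : E3 → Fin 3 → ℝ) ⁻¹' Set.Icc a fun i => a i + ℓ := by
    ext x; simp only [cube, Set.mem_ofPred_eq, Set.mem_preimage, Set.mem_Icc, Pi.le_def,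
      forall_and]
  rw [this, (PiLp.volume_preserving_ofLp (Fin 3)).measure_preimage
    measurableSet_Icc.nullMeasurableSet, Real.volume_Icc_pi]
  simp

theorem vol_cube_ne (a : Fin 3 → ℝ) (ℓ : ℝ) : volume (cube a ℓ) ≠ ∞ := by
  rw [vol_cube]; exact ENNReal.pow_ne_top ENNReal.ofReal_ne_top

theorem real_cube (a : Fin 3 → ℝ) {ℓ : ℝ} (h : 0 ≤ ℓ) : volume.real (cube a ℓ) = ℓ ^ 3 := by
  rw [Measure.real, vol_cube, ENNReal.toReal_pow, ENNReal.toReal_ofReal h]

theorem meas_box (L : ℝ) : MeasurableSet (box L) := box_eq L ▸ meas_cube 0 L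

theorem vol_box_ne (L : ℝ) : volume (box L) ≠ ∞ := box_eq L ▸ vol_cube_ne 0 L

theorem real_box {L : ℝ} (h : 0 ≤ L) : volume.real (box L) = L ^ 3 := box_eq L ▸ real_cube 0 h

theorem dist_lt_of_coord {x y : E3} {c : ℝ} (hc : 0 < c) (h : ∀ i, |x i - y i| ≤ c) :
    dist x y < 2 * c := by
  rw [EuclideanSpace.dist_eq, sqrt_lt' (by positivity), Fin.sum_univ_three]
  simp only [Real.dist_eq]
  have h1 : ∀ i, |x i - y i| ^ 2 ≤ c ^ 2 := fun i => pow_le_pow_left₀ (abs_nonneg _) (h i) 2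
  nlinarith [h1 0, h1 1, h1 2]

theorem coord_le_dist (x y : E3) (i : Fin 3) : |x i - y i| ≤ dist x y := by
  rw [← Real.dist_eq]; exact PiLp.dist_apply_le x y i

/-- Label of the block of side `M`, shifted by `s`, containing a point. -/
noncomputable def lab (M : ℕ) (s : ℤ) (x : E3) : Fin 3 → ℤ := fun i => (⌊x i⌋ - s) / M

/-- Blocks. -/
def blk (M : ℕ) (s : ℤ) (k : Fin 3 → ℤ) : Set E3 := {x | lab M s x = k}

theorem meas_lab (M : ℕ) (s : ℤ) : Measurable (lab M s) :=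
  measurable_pi_iff.2 fun i =>
    (measurable_of_countable fun n : ℤ => (n - s) / M).comp ((meas_coord i).floor)

theorem meas_blk (M : ℕ) (s : ℤ) (k : Fin 3 → ℤ) : MeasurableSet (blk M s k) :=
  meas_lab M s (measurableSet_singleton k)

theorem mem_blk {M : ℕ} (hM : 0 < M) {s : ℤ} {k : Fin 3 → ℤ} {x : E3} :
    x ∈ blk M s k ↔ ∀ i, x i ∈ Set.Ico ((k i * M + s : ℤ) : ℝ) ((k i * M + s : ℤ) + M) := by
  simp only [blk, Set.mem_ofPred_eq, funext_iff, lab]
  refine forall_congr' fun i => ?_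
  rw [Int.ediv_eq_iff_of_pos (by exact_mod_cast hM), Set.mem_Ico, ← Int.le_floor]
  have : x i < ((k i * M + s : ℤ) : ℝ) + M ↔ ⌊x i⌋ < k i * M + s + M := by
    rw [Int.floor_lt]; push_cast; rfl
  rw [this]
  constructor <;> rintro ⟨h1, h2⟩ <;> constructor <;> linarith

theorem real_blk {M : ℕ} (hM : 0 < M) (s : ℤ) (k : Fin 3 → ℤ) :
    volume.real (blk M s k) = (M : ℝ) ^ 3 := by
  have : blk M s k = (WithLp.ofLp : E3 → Fin 3 → ℝ) ⁻¹' Set.pi Set.univ fun i =>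
      Set.Ico ((k i * M + s : ℤ) : ℝ) ((k i * M + s : ℤ) + M) := by
    ext x; rw [mem_blk hM]; simp only [Set.mem_preimage, Set.mem_pi, Set.mem_univ, true_imp_iff]
  rw [Measure.real, this, (PiLp.volume_preserving_ofLp (Fin 3)).measure_preimage
    (MeasurableSet.univ_pi fun i => measurableSet_Ico).nullMeasurableSet, Real.volume_pi_Ico]
  simp

theorem blk_sub_cube {M : ℕ} (hM : 0 < M) (s : ℤ) (k : Fin 3 → ℤ) :
    blk M s k ⊆ cube (fun i => ((k i * M + s : ℤ) : ℝ)) M := fun _ hx i =>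
  Set.Ico_subset_Icc_self ((mem_blk hM).1 hx i)

theorem vol_blk_ne {M : ℕ} (hM : 0 < M) (s : ℤ) (k : Fin 3 → ℤ) : volume (blk M s k) ≠ ∞ :=
  measure_ne_top_of_subset (blk_sub_cube hM s k) (vol_cube_ne _ _)

theorem coord_of_lab {M : ℕ} (hM : 0 < M) {s : ℤ} {x y : E3} (h : lab M s x = lab M s y)
    (i : Fin 3) : |x i - y i| ≤ M := by
  have h1 := (mem_blk hM (k := lab M s y)).1 h i
  have h2 := (mem_blk hM (k := lab M s y) (x := y)).1 rfl i
  rw [abs_le]; constructor <;> linarith [h1.1, h1.2, h2.1, h2.2]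

theorem dist_of_lab {M : ℕ} (hM : 0 < M) {s : ℤ} {x y : E3} (h : lab M s x = lab M s y) :
    dist x y < 2 * M := dist_lt_of_coord (by exact_mod_cast hM) (coord_of_lab hM h)

theorem lab_of_cell (M : ℕ) (s : ℤ) {x y : E3} (h : lab 1 0 x = lab 1 0 y) :
    lab M s x = lab M s y := by
  funext i
  have := congrFun h i
  simp only [lab, sub_zero, Nat.cast_one, Int.ediv_one] at this
  simp only [lab, this]

theorem blk_disj (M : ℕ) (s : ℤ) : Pairwise (Function.onFun Disjoint (blk M s)) :=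
  fun _ _ h => Set.disjoint_left.2 fun _ h1 h2 => h (Eq.trans (Eq.symm h1) h2)

theorem card_mul_le {M : ℕ} (hM : 0 < M) (s : ℤ) (𝒦 : Finset (Fin 3 → ℤ)) {B : Set E3}
    (hB : volume B ≠ ∞) (h : ∀ k ∈ 𝒦, blk M s k ⊆ B) :
    (𝒦.card : ℝ) * (M : ℝ) ^ 3 ≤ volume.real B := by
  have h1 := measureReal_biUnion_finset (μ := volume) (s := 𝒦) (f := blk M s)
    (fun k _ l _ hkl => blk_disj M s hkl) (fun k _ => meas_blk M s k)
    (fun k _ => vol_blk_ne hM s k)
  simp only [real_blk hM, sum_const, nsmul_eq_mul] at h1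
  rw [← h1]
  exact measureReal_mono (Set.iUnion₂_subset h) hB

/-- Indicator kernel of lying in one block. -/
noncomputable def K (M : ℕ) (s : ℤ) (x y : E3) : ℝ := if lab M s x = lab M s y then 1 else 0

theorem K_nonneg (M : ℕ) (s : ℤ) (x y : E3) : 0 ≤ K M s x y := by
  unfold K; split_ifs <;> norm_num

theorem meas_K (M : ℕ) (s : ℤ) : Measurable (Function.uncurry (K M s)) :=
  Measurable.ite (measurableSet_eq_fun ((meas_lab M s).comp measurable_fst)
    ((meas_lab M s).comp measurable_snd)) measurable_const measurable_const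

/-- The sum of squared occupation numbers of unit cells. -/
noncomputable def Q (m : Multiset E3) : ℝ := W (K 1 0) m

theorem W_K_nonneg (M : ℕ) (s : ℤ) (m : Multiset E3) : 0 ≤ W (K M s) m :=
  W2_nonneg fun x _ y _ => K_nonneg M s x y

theorem Q_nonneg (m : Multiset E3) : 0 ≤ Q m := W_K_nonneg _ _ m

theorem card_le_Q (m : Multiset E3) : (m.card : ℝ) ≤ Q m := by
  obtain ⟨N, x, rfl⟩ := cfg_surj m
  rw [card_cfg, Q, W_cfg]
  calc (N : ℝ) = ∑ _i : Fin N, (1 : ℝ) := by simp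
    _ ≤ _ := sum_le_sum fun i _ => by
      have := single_le_sum (f := fun j => K 1 0 (x i) (x j))
        (fun j _ => K_nonneg 1 0 _ _) (mem_univ i)
      simpa [K] using this

theorem cs_fiber {ι κ : Type*} [DecidableEq κ] (S : Finset ι) (l : ι → κ) :
    (S.card : ℝ) ^ 2 ≤ (S.image l).card * ∑ i ∈ S, ∑ j ∈ S, if l i = l j then (1 : ℝ) else 0 := by
  have h1 : (S.card : ℝ) = ∑ k ∈ S.image l, ((S.filter fun j => l j = k).card : ℝ) := by
    rw [card_eq_sum_card_image l S]; push_cast; rfl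
  have h2 : ∑ i ∈ S, ∑ j ∈ S, (if l i = l j then (1 : ℝ) else 0) =
      ∑ k ∈ S.image l, ((S.filter fun j => l j = k).card : ℝ) ^ 2 := by
    have h3 : ∀ i, ∑ j ∈ S, (if l i = l j then (1 : ℝ) else 0) =
        ((S.filter fun j => l j = l i).card : ℝ) := fun i => by
      rw [sum_boole]; simp only [eq_comm]
    simp only [h3]
    rw [sum_comp (fun k => ((S.filter fun j => l j = k).card : ℝ)) l]
    simp only [nsmul_eq_mul, sq]
  rw [h1, h2]
  exact sq_sum_le_card_mul_sum_sq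

theorem cs_blocks {ι : Type*} (S : Finset ι) (x : ι → E3) {M : ℕ} (hM : 0 < M) (s : ℤ)
    {B : Set E3} (hB : volume B ≠ ∞) (h : ∀ i ∈ S, blk M s (lab M s (x i)) ⊆ B) :
    (M : ℝ) ^ 3 * (S.card : ℝ) ^ 2 ≤ volume.real B * ∑ i ∈ S, ∑ j ∈ S, K M s (x i) (x j) := by
  classical
  have h1 := cs_fiber S fun i => lab M s (x i)
  have h2 := card_mul_le hM s (S.image fun i => lab M s (x i)) hB fun k hk => by
    obtain ⟨i, hi, rfl⟩ := mem_image.1 hk
    exact h i hi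
  have h3 : 0 ≤ ∑ i ∈ S, ∑ j ∈ S, K M s (x i) (x j) :=
    sum_nonneg fun i _ => sum_nonneg fun j _ => K_nonneg _ _ _ _
  have h4 := mul_le_mul_of_nonneg_left h1 (by positivity : 0 ≤ (M : ℝ) ^ 3)
  have h5 := mul_le_mul_of_nonneg_right h2 h3
  refine h4.trans (le_of_eq_of_le ?_ h5)
  simp only [K]; ring

theorem mem_cfg {N : ℕ} (x : Fin N → E3) (i : Fin N) : x i ∈ cfg x :=
  Multiset.mem_map_of_mem x (mem_univ_val i)

theorem sq_card_le {M : ℕ} (hM : 0 < M) (s : ℤ) (k : Fin 3 → ℤ) (m : Multiset E3)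
    (hm : ∀ x ∈ m, x ∈ blk M s k) : (m.card : ℝ) ^ 2 ≤ (M : ℝ) ^ 3 * Q m := by
  obtain ⟨N, x, rfl⟩ := cfg_surj m
  have := cs_blocks univ x one_pos 0 (vol_blk_ne hM s k) fun i _ y hy =>
    Eq.trans (lab_of_cell M s hy) (hm _ (mem_cfg x i))
  rw [real_blk hM] at this
  simpa [card_cfg, Q, W_cfg] using this

/-- Boundary layer of width `w` of the blocks. -/
def layer (M : ℕ) (w : ℕ) (s : ℤ) (x : E3) : Prop :=
  ∃ i, ∃ d ∈ Finset.Icc (-(w : ℤ)) w, (M : ℤ) ∣ ⌊x i⌋ + d - s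

theorem layer_of_ne {M w : ℕ} (hM : 0 < M) {s : ℤ} {x y : E3} (h : lab M s x ≠ lab M s y)
    (hd : dist x y < w) : layer M w s x := by
  obtain ⟨i, hi⟩ := Function.ne_iff.1 h
  have h1 := abs_lt.1 ((coord_le_dist x y i).trans_lt hd)
  have h2 : ⌊x i⌋ - ⌊y i⌋ < w + 1 := by
    have : ((⌊x i⌋ - ⌊y i⌋ : ℤ) : ℝ) < ((w + 1 : ℤ) : ℝ) := by
      push_cast; linarith [Int.floor_le (x i), Int.lt_floor_add_one (y i)]
    exact_mod_cast this
  have h3 : ⌊y i⌋ - ⌊x i⌋ < w + 1 := by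
    have : ((⌊y i⌋ - ⌊x i⌋ : ℤ) : ℝ) < ((w + 1 : ℤ) : ℝ) := by
      push_cast; linarith [Int.floor_le (y i), Int.lt_floor_add_one (x i)]
    exact_mod_cast this
  simp only [lab] at hi
  have hM' : (0 : ℤ) < M := by exact_mod_cast hM
  have ha := (Int.ediv_eq_iff_of_pos hM').1 (rfl : (⌊x i⌋ - s) / M = _)
  have hb := (Int.ediv_eq_iff_of_pos hM').1 (rfl : (⌊y i⌋ - s) / M = _)
  set a := (⌊x i⌋ - s) / M
  set b := (⌊y i⌋ - s) / M
  rcases lt_or_gt_of_ne hi with hab | hab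
  · have : (a + 1) * M ≤ b * M := mul_le_mul_of_nonneg_right hab hM'.le
    refine ⟨i, b * M + s - ⌊x i⌋, mem_Icc.2 ⟨by linarith, by linarith⟩, b, by ring⟩
  · have : (b + 1) * M ≤ a * M := mul_le_mul_of_nonneg_right hab hM'.le
    refine ⟨i, a * M + s - ⌊x i⌋, mem_Icc.2 ⟨by linarith, by linarith⟩, a, by ring⟩

open Classical in
theorem layer_count (M w : ℕ) (x : E3) :
    ∑ s ∈ range M, (if layer M w s x then (1 : ℝ) else 0) ≤ 3 * (2 * w + 1) := by
  have h1 : ∀ n : ℤ, ∑ s ∈ range M, (if (M : ℤ) ∣ n - s then (1 : ℝ) else 0) ≤ 1 := fun n => by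
    rw [sum_boole]
    have : ((range M).filter fun s : ℕ => (M : ℤ) ∣ n - s).card ≤ 1 := by
      refine card_le_one.2 fun a ha b hb => ?_
      obtain ⟨ha1, ha2⟩ := mem_filter.1 ha
      obtain ⟨hb1, hb2⟩ := mem_filter.1 hb
      have h3 : (M : ℤ) ∣ (a : ℤ) - b := by simpa using dvd_sub hb2 ha2
      have := mem_range.1 ha1
      have := mem_range.1 hb1
      have := Int.eq_zero_of_abs_lt_dvd h3 (abs_lt.2 ⟨by omega, by omega⟩)
      omega
    exact_mod_cast this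
  calc _ ≤ ∑ s ∈ range M, ∑ i, ∑ d ∈ Finset.Icc (-(w : ℤ)) w,
        (if (M : ℤ) ∣ ⌊x i⌋ + d - s then (1 : ℝ) else 0) := sum_le_sum fun s _ => by
        have h0 : ∀ i, ∀ d, 0 ≤ (if (M : ℤ) ∣ ⌊x i⌋ + d - s then (1 : ℝ) else 0) :=
          fun i d => by split_ifs <;> norm_num
        split_ifs with h
        · obtain ⟨i, d, hd, h⟩ := h
          refine le_trans ?_ (single_le_sum (fun i _ => sum_nonneg fun d _ => h0 i d)
            (mem_univ i))
          refine le_trans ?_ (single_le_sum (fun d _ => h0 i d) hd)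
          rw [if_pos h]
        · exact sum_nonneg fun i _ => sum_nonneg fun d _ => h0 i d
    _ = ∑ i, ∑ d ∈ Finset.Icc (-(w : ℤ)) w, ∑ s ∈ range M,
        (if (M : ℤ) ∣ ⌊x i⌋ + d - s then (1 : ℝ) else 0) := by
        rw [sum_comm]; exact sum_congr rfl fun i _ => sum_comm
    _ ≤ ∑ _i : Fin 3, ∑ _d ∈ Finset.Icc (-(w : ℤ)) w, (1 : ℝ) :=
        sum_le_sum fun i _ => sum_le_sum fun d _ => h1 _
    _ = _ := by
        have : ((w : ℤ) + 1 + w).toNat = 2 * w + 1 := by omega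
        simp [this]; ring

end Vale.Agent.P171
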