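import Mathlib

/-! Approximate kinks of convex functions survive the Lebowitz-Penrose transform. -/

namespace Vale.Agent.P171

open Set

/-- `p` has an approximate kink at `μ0` with slopes in `[a, b]`. -/
def Kink (p : ℝ → ℝ) (μ0 a b η : ℝ) : Prop :=
  ∀ μ, ∀ c ∈ Icc a b, p μ0 - η + c * (μ - μ0) ≤ p μ

theorem Kink.mono {p : ℝ → ℝ} {μ0 a b η a' b' η' : ℝ} (h : Kink p μ0 a b η) (ha : a ≤ a')
    (hb : b' ≤ b) (hη : η ≤ η') : Kink p μ0 a' b' η' := fun μ c hc => by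
  linarith [h μ c ⟨ha.trans hc.1, hc.2.trans hb⟩]

/-- Three-point convexity inequality. -/
theorem conv3 {p : ℝ → ℝ} (hp : ConvexOn ℝ univ p) {x y z : ℝ} (h1 : x ≤ y) (h2 : y ≤ z) :
    (z - x) * p y ≤ (z - y) * p x + (y - x) * p z := by
  rcases eq_or_lt_of_le (h1.trans h2) with h | h
  · have : y = x := le_antisymm (h ▸ h2) h1
    subst this; subst h; simp
  · have h3 := hp.2 (mem_univ x) (mem_univ z)
      (div_nonneg (by linarith) (by linarith) : 0 ≤ (z - y) / (z - x))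
      (div_nonneg (by linarith) (by linarith) : 0 ≤ (y - x) / (z - x))
      (by field_simp [(sub_pos.2 h).ne']; ring)
    have h4 : ((z - y) / (z - x)) • x + ((y - x) / (z - x)) • z = y := by
      simp only [smul_eq_mul]; field_simp [(sub_pos.2 h).ne']; ring
    rw [h4] at h3
    simp only [smul_eq_mul] at h3
    have h5 := mul_le_mul_of_nonneg_left h3 (sub_pos.2 h).le
    refine h5.trans (le_of_eq ?_)
    field_simp [(sub_pos.2 h).ne']

theorem slope_right {p : ℝ → ℝ} (hp : ConvexOn ℝ univ p) {x h s : ℝ} (hh : 0 < h)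
    (hs : p (x - h) + s * h ≤ p x) {Δ : ℝ} (hΔ : 0 ≤ Δ) : p x + s * Δ ≤ p (x + Δ) := by
  have h1 := conv3 hp (by linarith : x - h ≤ x) (by linarith : x ≤ x + Δ)
  refine le_of_mul_le_mul_left ?_ hh
  nlinarith [mul_le_mul_of_nonneg_left hs hΔ]

theorem slope_left {p : ℝ → ℝ} (hp : ConvexOn ℝ univ p) {x h s : ℝ} (hh : 0 < h)
    (hs : p (x + h) ≤ p x + s * h) {Δ : ℝ} (hΔ : 0 ≤ Δ) : p x - s * Δ ≤ p (x - Δ) := by
  have h1 := conv3 hp (by linarith : x - Δ ≤ x) (by linarith : x ≤ x + h)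
  refine le_of_mul_le_mul_left ?_ hh
  nlinarith [mul_le_mul_of_nonneg_left hs hΔ]

theorem kink_step {p q : ℝ → ℝ} (hp : ConvexOn ℝ univ p) {μ0 a b η ε δ Tm η' : ℝ}
    (hK : Kink p μ0 a b η) (hε : 0 < ε) (hδ : 0 < δ) (ha : 0 ≤ a) (hab : a + 2 * δ ≤ b - 2 * δ)
    (hb : b ≤ Tm) (hη : η ≤ ε * δ ^ 2 / 2)
    (hlow : ∀ μ t, p (μ + ε * t) - ε * t ^ 2 / 2 ≤ q μ)
    (hup : ∀ μ ≤ μ0, ∀ P, (∀ t ∈ Icc 0 Tm, p (μ + ε * t) - ε * t ^ 2 / 2 ≤ P) → q μ ≤ P + η') :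
    ∃ μ1 ∈ Icc (μ0 - ε * Tm) μ0, Kink q μ1 (a + 2 * δ) (b - 2 * δ) η' := by
  have hc : Continuous p := continuousOn_univ.1 (hp.continuousOn isOpen_univ)
  set g : ℝ → ℝ → ℝ := fun μ t => p (μ + ε * t) - ε * t ^ 2 / 2 with hg
  have hgc : Continuous (Function.uncurry g) := by
    simp only [hg, Function.uncurry_def]; fun_prop
  have hgc' : ∀ μ, Continuous (g μ) := fun μ => by simp only [hg]; fun_prop
  have hεδ : 0 < ε * δ := mul_pos hε hδ
  -- location of maximisers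
  have hR : ∀ μ, ∀ t ∈ Icc 0 Tm, (∀ s ∈ Icc 0 Tm, g μ s ≤ g μ t) → μ0 ≤ μ + ε * t →
      b - δ ≤ t := by
    intro μ t ht hm hν
    by_contra hlt
    push Not at hlt
    have h1 := hm (t + δ) ⟨by linarith [ht.1], by linarith⟩
    have h2 := conv3 hp hν (by nlinarith : μ + ε * t ≤ μ + ε * (t + δ))
    have h3 := hK (μ + ε * (t + δ)) b ⟨by linarith, le_rfl⟩
    have h0 : 0 ≤ η := by have := hK μ0 b ⟨by linarith, le_rfl⟩; linarith
    simp only [hg] at h1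
    set u := μ + ε * t - μ0 with hu
    have e1 : μ + ε * (t + δ) - μ0 = u + ε * δ := by rw [hu]; ring
    have e2 : μ + ε * (t + δ) - (μ + ε * t) = ε * δ := by ring
    rw [e1, e2] at h2
    rw [e1] at h3
    have hu0 : 0 ≤ u := by linarith
    have h4 : p (μ + ε * (t + δ)) - p (μ + ε * t) < ε * δ * b - η := by nlinarith
    have h5 := mul_le_mul_of_nonneg_left h3 hεδ.le
    have h6 := mul_lt_mul_of_pos_left h4 (by linarith : 0 < u + ε * δ)
    nlinarith [mul_nonneg hu0 h0]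
  have hL : ∀ μ, ∀ t ∈ Icc 0 Tm, (∀ s ∈ Icc 0 Tm, g μ s ≤ g μ t) → μ + ε * t ≤ μ0 →
      t ≤ a + δ := by
    intro μ t ht hm hν
    by_contra hlt
    push Not at hlt
    have h1 := hm (t - δ) ⟨by linarith, by linarith [ht.2]⟩
    have h2 := conv3 hp (by nlinarith : μ + ε * (t - δ) ≤ μ + ε * t) hν
    have h3 := hK (μ + ε * (t - δ)) a ⟨le_rfl, by linarith⟩
    have h0 : 0 ≤ η := by have := hK μ0 b ⟨by linarith, le_rfl⟩; linarith
    simp only [hg] at h1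
    set u := μ0 - (μ + ε * t) with hu
    have e1 : μ0 - (μ + ε * (t - δ)) = u + ε * δ := by rw [hu]; ring
    have e1' : μ + ε * (t - δ) - μ0 = -(u + ε * δ) := by rw [hu]; ring
    have e2 : μ + ε * t - (μ + ε * (t - δ)) = ε * δ := by ring
    rw [e1, e2] at h2
    rw [e1'] at h3
    have hu0 : 0 ≤ u := by linarith
    have h4 : p (μ + ε * (t - δ)) - p (μ + ε * t) < -(ε * δ * a) - η := by nlinarith
    have h5 := mul_le_mul_of_nonneg_left h3 hεδ.le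
    have h6 := mul_lt_mul_of_pos_left h4 (by linarith : 0 < u + ε * δ)
    nlinarith [mul_nonneg hu0 h0]
  have hT : 0 ≤ Tm := by linarith
  have hI1 : Icc 0 (a + δ) ⊆ Icc 0 Tm := Icc_subset_Icc le_rfl (by linarith)
  have hI2 : Icc (b - δ) Tm ⊆ Icc 0 Tm := Icc_subset_Icc (by linarith) le_rfl
  have hne1 : (Icc 0 (a + δ)).Nonempty := nonempty_Icc.2 (by linarith)
  have hne2 : (Icc (b - δ) Tm).Nonempty := nonempty_Icc.2 (by linarith)
  set h1 : ℝ → ℝ := fun μ => sSup (g μ '' Icc 0 (a + δ)) with hh1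
  set h2 : ℝ → ℝ := fun μ => sSup (g μ '' Icc (b - δ) Tm) with hh2
  have c1 : Continuous h1 := isCompact_Icc.continuous_sSup hgc
  have c2 : Continuous h2 := isCompact_Icc.continuous_sSup hgc
  have e1 : ∀ μ, ∃ t ∈ Icc 0 (a + δ), h1 μ = g μ t ∧ ∀ s ∈ Icc 0 (a + δ), g μ s ≤ g μ t :=
    fun μ => isCompact_Icc.exists_sSup_image_eq_and_ge hne1 (hgc' μ).continuousOn
  have e2 : ∀ μ, ∃ t ∈ Icc (b - δ) Tm, h2 μ = g μ t ∧ ∀ s ∈ Icc (b - δ) Tm, g μ s ≤ g μ t :=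
    fun μ => isCompact_Icc.exists_sSup_image_eq_and_ge hne2 (hgc' μ).continuousOn
  have e0 : ∀ μ, ∃ t ∈ Icc 0 Tm, ∀ s ∈ Icc 0 Tm, g μ s ≤ g μ t := fun μ =>
    isCompact_Icc.exists_isMaxOn (nonempty_Icc.2 hT) (hgc' μ).continuousOn
  have hμ : μ0 - ε * Tm ≤ μ0 := by nlinarith
  obtain ⟨μ1, hμ1, heq⟩ : ∃ μ1 ∈ Icc (μ0 - ε * Tm) μ0, h2 μ1 = h1 μ1 := by
    refine isPreconnected_Icc.intermediate_value₂ (left_mem_Icc.2 hμ) (right_mem_Icc.2 hμ)
      c2.continuousOn c1.continuousOn ?_ ?_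
    · obtain ⟨t, ht, hm⟩ := e0 (μ0 - ε * Tm)
      obtain ⟨t1, -, q1, m1⟩ := e1 (μ0 - ε * Tm)
      obtain ⟨t2, ht2, q2, -⟩ := e2 (μ0 - ε * Tm)
      have := hL _ t ht hm (by nlinarith [ht.2])
      rw [q1, q2]
      exact (hm t2 (hI2 ht2)).trans (m1 t ⟨ht.1, this⟩)
    · obtain ⟨t, ht, hm⟩ := e0 μ0
      obtain ⟨t1, ht1, q1, -⟩ := e1 μ0
      obtain ⟨t2, -, q2, m2⟩ := e2 μ0
      have := hR _ t ht hm (by nlinarith [ht.1])
      rw [q1, q2]
      exact (hm t1 (hI1 ht1)).trans (m2 t ⟨this, ht.2⟩)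
  refine ⟨μ1, hμ1, ?_⟩
  obtain ⟨t, ht, hm⟩ := e0 μ1
  obtain ⟨t1, ht1, q1, m1⟩ := e1 μ1
  obtain ⟨t2, ht2, q2, m2⟩ := e2 μ1
  have h12 : g μ1 t2 = g μ1 t1 := by rw [← q1, ← q2, heq]
  have hm1 : ∀ s ∈ Icc 0 Tm, g μ1 s ≤ g μ1 t1 := fun s hs => (hm s hs).trans (by
    rcases le_total (μ1 + ε * t) μ0 with h | h
    · exact m1 t ⟨ht.1, hL _ t ht hm h⟩
    · exact h12 ▸ m2 t ⟨hR _ t ht hm h, ht.2⟩)
  have hq := hup μ1 hμ1.2 _ hm1
  intro μ c hc
  rcases le_total μ1 μ with h | h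
  · have k1 := hm1 (t2 - δ) ⟨by linarith [ht2.1], by linarith [ht2.2]⟩
    have k2 := hlow μ t2
    rw [← h12] at k1 hq
    simp only [hg] at k1 hq
    have k3 := slope_right hp (x := μ1 + ε * t2) (s := c) hεδ (by
      rw [show μ1 + ε * t2 - ε * δ = μ1 + ε * (t2 - δ) by ring]
      nlinarith [mul_le_mul_of_nonneg_left ht2.1 hεδ.le, mul_le_mul_of_nonneg_left hc.2 hεδ.le])
      (sub_nonneg.2 h)
    rw [show μ1 + ε * t2 + (μ - μ1) = μ + ε * t2 by ring] at k3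
    linarith
  · have k1 := hm1 (t1 + δ) ⟨by linarith [ht1.1], by linarith [ht1.2]⟩
    have k2 := hlow μ t1
    simp only [hg] at k1 hq
    have k3 := slope_left hp (x := μ1 + ε * t1) (s := c) hεδ (by
      rw [show μ1 + ε * t1 + ε * δ = μ1 + ε * (t1 + δ) by ring]
      nlinarith [mul_le_mul_of_nonneg_left ht1.2 hεδ.le, mul_le_mul_of_nonneg_left hc.1 hεδ.le])
      (sub_nonneg.2 h)
    rw [show μ1 + ε * t1 - (μ1 - μ) = μ + ε * t1 by ring] at k3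
    linarith

theorem not_diff_of_kink {p : ℝ → ℝ} {μ0 a b : ℝ} (hab : a < b) (h : Kink p μ0 a b 0) :
    ¬DifferentiableAt ℝ p μ0 := by
  intro hd
  have key : ∀ c ∈ Icc a b, deriv p μ0 - c = 0 := fun c hc => by
    have h1 : HasDerivAt (fun μ => p μ - c * μ) (deriv p μ0 - c) μ0 := by
      simpa using hd.hasDerivAt.fun_sub ((hasDerivAt_id μ0).const_mul c)
    refine IsLocalMin.hasDerivAt_eq_zero (Filter.Eventually.of_forall fun μ => ?_) h1
    linarith [h μ c hc]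
  linarith [key a ⟨le_rfl, hab.le⟩, key b ⟨hab.le, le_rfl⟩]

theorem kink_limit {p : ℝ → ℝ} (hp : ConvexOn ℝ univ p) {lo hi a b : ℝ} {η : ℕ → ℝ}
    (hη : Filter.Tendsto η Filter.atTop (nhds 0))
    (h : ∀ᶠ k in Filter.atTop, ∃ μ ∈ Icc lo hi, Kink p μ a b (η k)) : ∃ μ, Kink p μ a b 0 := by
  have hc : Continuous p := continuousOn_univ.1 (hp.continuousOn isOpen_univ)
  obtain ⟨k0, hk0⟩ := Filter.eventually_atTop.1 h
  choose μ hμ hK using fun k => hk0 (k + k0) (by omega)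
  obtain ⟨μ0, -, σ, hσ, hl⟩ := isCompact_Icc.tendsto_subseq hμ
  refine ⟨μ0, fun ν c hc' => ?_⟩
  have h1 : Filter.Tendsto (fun k => η (σ k + k0)) Filter.atTop (nhds 0) :=
    hη.comp ((Filter.tendsto_add_atTop_nat k0).comp hσ.tendsto_atTop)
  refine le_of_tendsto' (((hc.tendsto μ0).comp hl |>.sub h1).add
    ((tendsto_const_nhds.sub hl).const_mul c)) fun k => hK (σ k) ν c hc'

end Vale.Agent.P171
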