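import Vale.Agent.P171.LP
import Vale.Agent.P171.Kink

/-! Iteration of Kac perturbations on rapidly growing scales. -/

namespace Vale.Agent.P171

open MeasureTheory Finset Real Filter Topology

/-- First coupling constant. -/
def E0 : ℝ := 2000000

/-- Height of the core. -/
def A0 : ℝ := 24 * E0 + 2

/-- Density cutoff. -/
noncomputable def T0 : ℝ := exp (A0 / 2 + 1)

/-- Error constant. -/
noncomputable def C0 : ℝ := 240 * E0 * exp (A0 / 2) + (T0 + 4 + 26 * exp (A0 / 2 + E0 * T0))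

/-- Basic scale. -/
noncomputable def Y0 : ℕ := max 1000 ⌈2 * C0⌉₊

/-- Scales. -/
noncomputable def yy (k : ℕ) : ℕ := Y0 ^ 2 ^ k

/-- Slope losses. -/
noncomputable def del (k : ℕ) : ℝ := if k = 0 then 1 / 1000 else 1 / yy k

/-- Coupling constants. -/
noncomputable def eps (k : ℕ) : ℝ := if k = 0 then E0 else 1 / yy k

/-- Ranges. -/
noncomputable def rad (k : ℕ) : ℝ := (yy k : ℝ) ^ 32

/-- Truncated tail. -/
noncomputable def SS (k : ℕ) (d : ℝ) : ℝ := ∑ j ∈ range k, eps j * kac (rad j) d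

theorem E0_pos : 0 < E0 := by norm_num [E0]

theorem A0_pos : 0 < A0 := by norm_num [A0, E0]

theorem T0_ge : 1 ≤ T0 := one_le_exp (by linarith [A0_pos])

theorem yy_succ (k : ℕ) : yy (k + 1) = yy k ^ 2 := by rw [yy, yy, pow_succ, pow_mul]

theorem yy_ge (k : ℕ) : 1000 * 2 ^ k ≤ yy k := by
  induction k with
  | zero => rw [yy, pow_zero, pow_one, mul_one]; exact le_max_left _ _
  | succ k ih =>
    have : 1 ≤ 2 ^ k := Nat.one_le_two_pow
    rw [yy_succ, pow_succ]
    nlinarith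

theorem yy_ge' (k : ℕ) : (1000 : ℝ) * 2 ^ k ≤ yy k := by exact_mod_cast yy_ge k

theorem yy_big (k : ℕ) : (1000 : ℝ) ≤ yy k := by
  have : (1 : ℝ) ≤ 2 ^ k := one_le_pow₀ (by norm_num)
  linarith [yy_ge' k]

theorem yy_mono : Monotone yy := monotone_nat_of_le_succ fun k => by
  rw [yy_succ]; exact Nat.le_self_pow two_ne_zero _

theorem yy_C (k : ℕ) : 2 * C0 ≤ yy k := by
  have h1 : (yy 0 : ℝ) ≤ yy k := by exact_mod_cast yy_mono (Nat.zero_le k)
  have h2 : ⌈2 * C0⌉₊ ≤ yy 0 := by rw [yy, pow_zero, pow_one]; exact le_max_right _ _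
  exact (Nat.ceil_le.1 h2).trans h1

theorem inv_yy (k : ℕ) : (1 : ℝ) / yy k ≤ (1 / 2) ^ k / 1000 := by
  refine (one_div_le_one_div_of_le (by positivity) (yy_ge' k)).trans (le_of_eq ?_)
  rw [one_div_pow]; field_simp

theorem del_pos (k : ℕ) : 0 < del k := by
  have := yy_big k
  unfold del; split_ifs <;> positivity

theorem del_le (k : ℕ) : del k ≤ (1 / 2) ^ k / 1000 := by
  unfold del; split_ifs with h
  · simp [h]
  · exact inv_yy k

theorem eps_pos (k : ℕ) : 0 < eps k := by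
  have := yy_big k
  have := E0_pos
  unfold eps; split_ifs <;> positivity

theorem eps_le (k : ℕ) : eps k ≤ E0 * (1 / 2) ^ k := by
  unfold eps; split_ifs with h
  · simp [h]
  · refine (inv_yy k).trans ?_
    have : (0 : ℝ) < (1 / 2) ^ k := by positivity
    rw [E0]; linarith

theorem half_le (k : ℕ) : ((1 : ℝ) / 2) ^ k ≤ 1 := pow_le_one₀ (by norm_num) (by norm_num)

theorem eps_le' (k : ℕ) : eps k ≤ E0 :=
  (eps_le k).trans (mul_le_of_le_one_right E0_pos.le (half_le k))

theorem rad_ge (k : ℕ) : 2 ≤ rad k := by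
  have := yy_big k
  exact le_trans (by linarith) (le_self_pow₀ (by linarith) (by norm_num))

theorem SS_succ (k : ℕ) : SS (k + 1) = fun d => SS k d + eps k * kac (rad k) d :=
  funext fun _ => sum_range_succ _ _

theorem SS_0 : SS 0 = fun _ => 0 := funext fun _ => by simp [SS]

theorem att_SS (k : ℕ) : Att (16 * E0 * (1 - (1 / 2) ^ k)) (SS k) := by
  induction k with
  | zero => rw [SS_0]; simpa using att_zero
  | succ k ih =>
    rw [SS_succ]
    refine (ih.add ((att_kac (rad_ge k)).smul (eps_pos k).le)).mono ?_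
    rw [pow_succ]; linarith [eps_le k]

theorem att_SS' (k : ℕ) : Att (16 * E0) (SS k) := (att_SS k).mono (by
  have : (0 : ℝ) < (1 / 2) ^ k := by positivity
  nlinarith [E0_pos])

theorem SS_zero (k : ℕ) (d : ℝ) (hd : ((2 * yy k ^ 16 : ℕ) : ℝ) ≤ d) : SS k d = 0 :=
  sum_eq_zero fun j hj => by
    have h1 : (yy (j + 1) : ℝ) ≤ yy k := by exact_mod_cast yy_mono (mem_range.1 hj)
    have h2 := pow_le_pow_left₀ (Nat.cast_nonneg _) h1 16
    rw [yy_succ] at h2
    push_cast at hd h2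
    rw [← pow_mul, show 2 * 16 = 32 from rfl] at h2
    rw [kac_zero (by rw [rad]; linarith) (by linarith [rad_ge j]), mul_zero]

theorem step_upper (k : ℕ) {μ P : ℝ} (hμ : μ ≤ A0 / 2)
    (hP : ∀ t ∈ Set.Icc 0 T0, pr (pot A0 (SS k)) (μ + eps k * t) - eps k * t ^ 2 / 2 ≤ P) :
    pr (pot A0 (SS (k + 1))) μ ≤ P + eps (k + 1) * del (k + 1) ^ 2 / 2 := by
  have hy := yy_big k
  have hC := yy_C k
  have hE := E0_pos
  have hT := T0_ge
  set y : ℝ := (yy k : ℝ) with hyd
  have hy0 : 0 < y := by linarith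
  have h8 : y ≤ y ^ 8 := le_self_pow₀ (by linarith) (by norm_num)
  have h16 : 1 ≤ y ^ 16 := one_le_pow₀ (by linarith)
  have e1 : 1 ≤ exp (A0 / 2) := one_le_exp (by linarith [A0_pos])
  have e2 := exp_pos (A0 / 2 + E0 * T0)
  rw [SS_succ]
  refine (lp_upper (τ := 240 * E0 / y ^ 8) (w := 2 * yy k ^ 16) (M := yy k ^ 24) (att_SS' k)
    (by positivity) (SS_zero k) (pow_pos (Nat.cast_pos.1 hy0) 24) (rad_ge k) ?_ (eps_pos k).le
    (by rw [A0]; linarith [eps_le' k]) ?_ ?_ ?_ (exp_le_exp.2 (by linarith)) hP).trans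
    (add_le_add_right ?_ _)
  · push_cast
    exact pow_le_pow_right₀ (by linarith) (by norm_num)
  · push_cast
    rw [div_le_div_iff₀ (by positivity) (by positivity)]
    nlinarith [mul_le_mul_of_nonneg_left h16 (by positivity : 0 ≤ E0 * y ^ 8)]
  · push_cast
    rw [rad, div_le_div_iff₀ (by positivity) (by positivity)]
    nlinarith [mul_le_mul_of_nonneg_right (eps_le' k) (by positivity : 0 ≤ y ^ 32),
      (by positivity : 0 ≤ E0 * y ^ 32)]
  · rw [div_le_one (by positivity)]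
    rw [C0] at hC
    nlinarith
  · have k1 : exp μ ≤ exp (A0 / 2) := exp_le_exp.2 hμ
    have k2 : exp (μ + eps k * T0) ≤ exp (A0 / 2 + E0 * T0) :=
      exp_le_exp.2 (by nlinarith [eps_le' k])
    have k3 : (T0 + 4 + 26 * exp (μ + eps k * T0)) / ((yy k ^ 24 : ℕ) : ℝ) ≤
        (T0 + 4 + 26 * exp (A0 / 2 + E0 * T0)) / y ^ 8 := by
      push_cast
      exact div_le_div₀ (by positivity) (by linarith) (by positivity)
        (pow_le_pow_right₀ (by linarith) (by norm_num))
    have k4 : 240 * E0 / y ^ 8 * exp μ ≤ 240 * E0 * exp (A0 / 2) / y ^ 8 := by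
      rw [div_mul_eq_mul_div]
      exact div_le_div_of_nonneg_right (by nlinarith) (by positivity)
    refine (add_le_add k4 k3).trans ?_
    rw [← add_div, ← C0, eps, del, if_neg k.succ_ne_zero, if_neg k.succ_ne_zero, yy_succ]
    push_cast
    rw [← hyd, div_le_iff₀ (by positivity)]
    have : 1 / y ^ 2 * (1 / y ^ 2) ^ 2 / 2 * y ^ 8 = y ^ 2 / 2 := by field_simp
    rw [this]
    nlinarith

theorem good_SS (k : ℕ) : Good (pot A0 (SS k)) :=
  (att_SS' k).good (by linarith [E0_pos]) (by rw [A0]; linarith [E0_pos])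

theorem kink_SS (k : ℕ) : ∃ μ ∈ Set.Icc (A0 / 2 - 2 * E0 * T0 * (1 - (1 / 2) ^ k)) (A0 / 2),
    Kink (pr (pot A0 (SS k))) μ ((1 - (1 / 2) ^ k) / 250) (1 / 27 - (1 - (1 / 2) ^ k) / 250)
      (eps k * del k ^ 2 / 2) := by
  induction k with
  | zero =>
    refine ⟨A0 / 2, by simp, fun μ c hc => ?_⟩
    have h1 := base_upper A0_pos.le
    have h2 := base_lower A0_pos.le μ
    have h3 := (att_zero.good le_rfl A0_pos.le).pr_nonneg (μ := μ)
    have h4 : eps 0 * del 0 ^ 2 / 2 = 1 := by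
      rw [eps, del, if_pos rfl, if_pos rfl, E0]; norm_num
    norm_num at hc
    rw [SS_0, h4]
    rcases le_total μ (A0 / 2) with h | h
    · nlinarith [hc.1]
    · nlinarith [hc.2]
  | succ k ih =>
    obtain ⟨μ0, hμ0, hK⟩ := ih
    have h1 := half_le k
    have h2 : (0 : ℝ) < (1 / 2) ^ k := by positivity
    have h3 := del_le k
    have hT := T0_ge
    obtain ⟨μ1, hμ1, hK1⟩ := kink_step (q := pr (pot A0 (SS (k + 1)))) (good_SS k).convex hK
      (eps_pos k) (del_pos k) (by linarith) (by linarith) (by linarith : _ ≤ T0) le_rfl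
      (fun μ t => SS_succ k ▸ lp_lower (att_SS' k) (by linarith [E0_pos]) (eps_pos k).le
        (rad_ge k) (by rw [A0]; linarith [eps_le' k]) μ t)
      fun μ hμ P hP => step_upper k (hμ.trans hμ0.2) hP
    refine ⟨μ1, ⟨?_, hμ1.2.trans hμ0.2⟩, hK1.mono ?_ ?_ le_rfl⟩
    · rw [pow_succ]
      nlinarith [hμ1.1, hμ0.1, mul_le_mul_of_nonneg_right (eps_le k) (by linarith : 0 ≤ T0)]
    · rw [pow_succ]; linarith
    · rw [pow_succ]; linarith

/-- The tail of the attraction from scale `k` on. -/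
noncomputable def TT (k : ℕ) (d : ℝ) : ℝ := ∑' j, eps (j + k) * kac (rad (j + k)) d

theorem term_le' (j : ℕ) (d : ℝ) : eps j * kac (rad j) d ≤ E0 / Vb 1 * (1 / 2) ^ j := by
  have h1 := rad_ge j
  have h2 := Vb_pos one_pos
  have h3 : kac (rad j) d ≤ 1 / Vb 1 := (kac_le (by linarith) d).trans
    (one_div_le_one_div_of_le h2 (le_mul_of_one_le_left h2.le (one_le_pow₀ (by linarith))))
  refine (mul_le_mul (eps_le j) h3 (kac_nonneg _ _) (by have := E0_pos; positivity)).trans
    (le_of_eq (by ring))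

theorem summ (d : ℝ) : Summable fun j => eps j * kac (rad j) d :=
  Summable.of_nonneg_of_le (fun j => mul_nonneg (eps_pos j).le (kac_nonneg _ _))
    (fun j => term_le' j d) (summable_geometric_two.mul_left _)

theorem att_TT (k : ℕ) : Att (16 * E0 * (1 / 2) ^ k) (TT k) := by
  refine att_tsum (θ := fun j => 8 * E0 * (1 / 2) ^ k * (1 / 2) ^ j) (fun j =>
    ((att_kac (rad_ge (j + k))).smul (eps_pos _).le).mono ?_) ?_
    fun d => (summable_nat_add_iff k).2 (summ d)
  · have := eps_le (j + k)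
    rw [pow_add] at this
    linarith
  · rw [show 16 * E0 * (1 / 2) ^ k = 8 * E0 * (1 / 2) ^ k * 2 by ring]
    exact hasSum_geometric_two.mul_left _

theorem TT_split (k : ℕ) : TT 0 = fun d => SS k d + TT k d :=
  funext fun d => ((summ d).sum_add_tsum_nat_add k).symm

theorem good_TT : Good (pot A0 (TT 0)) :=
  (att_TT 0).good (by norm_num [E0]) (by norm_num [A0, E0])

theorem kink_TT : ∃ μ, ¬DifferentiableAt ℝ (pr (pot A0 (TT 0))) μ := by
  have hE := E0_pos
  have hT := T0_ge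
  have h0 : Tendsto (fun k : ℕ => ((1 : ℝ) / 2) ^ k) atTop (𝓝 0) :=
    tendsto_pow_atTop_nhds_zero_of_lt_one (by norm_num) (by norm_num)
  have h1 := h0.const_mul (16 * E0)
  have h2 := h0.const_mul (E0 + 16 * E0 * exp (A0 / 2))
  rw [mul_zero] at h1 h2
  obtain ⟨μ, h⟩ := kink_limit (lo := A0 / 2 - 2 * E0 * T0) (hi := A0 / 2) (a := 1 / 250)
    (b := 1 / 27 - 1 / 250) good_TT.convex h2
    ((h1.eventually (ge_mem_nhds one_pos)).mono fun k hk => by
      obtain ⟨μ, hμ, hK⟩ := kink_SS k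
      have k1 : (0 : ℝ) < (1 / 2) ^ k := by positivity
      refine ⟨μ, ⟨le_trans (by nlinarith [mul_pos (mul_pos hE (by linarith : 0 < T0)) k1]) hμ.1,
        hμ.2⟩, fun ν c hc => ?_⟩
      have k2 := hK ν c ⟨by linarith [hc.1], by linarith [hc.2]⟩
      have k3 := fun μ => pr_tail (A := A0) (μ := μ) (att_SS' k) (att_TT k) (by linarith)
        (by positivity) hk (by rw [A0]; linarith)
      rw [← TT_split] at k3
      have k4 := mul_le_mul_of_nonneg_left (exp_le_exp.2 hμ.2)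
        (by positivity : 0 ≤ 16 * E0 * (1 / 2) ^ k)
      have k5 : del k ^ 2 ≤ 1 := pow_le_one₀ (del_pos k).le (by linarith [del_le k, half_le k])
      have k6 := mul_le_mul_of_nonneg_left k5 (eps_pos k).le
      linarith [(k3 μ).2, (k3 ν).1, eps_le k, eps_pos k])
  exact ⟨μ, not_diff_of_kink (by norm_num) h⟩

theorem TT_le (d : ℝ) : TT 0 d ≤ E0 / Vb 1 * 2 :=
  hasSum_le (fun j => term_le' j d) (summ d).hasSum (hasSum_geometric_two.mul_left _)

theorem TT_decay : ∃ C : ℝ, 0 < C ∧ ∀ d, 0 < d → TT 0 d ≤ C * d ^ (-3 - 1 / 64 : ℝ) := by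
  have hV := Vb_pos one_pos
  have hs : Summable fun j => eps j * rad j ^ (1 / 64 : ℝ) := by
    refine (summable_nat_add_iff 1).1 (Summable.of_nonneg_of_le
      (fun j => mul_nonneg (eps_pos _).le (rpow_nonneg (by linarith [rad_ge (j + 1)]) _))
      (fun j => ?_) (summable_geometric_two.div_const 1000))
    have := yy_big j
    refine le_of_eq_of_le ?_ (inv_yy j)
    rw [eps, if_neg j.succ_ne_zero, rad, yy_succ]
    push_cast
    rw [← pow_mul, one_div (64 : ℝ)]
    have := Real.pow_rpow_inv_natCast (by linarith : (0 : ℝ) ≤ yy j) (by norm_num : 64 ≠ 0)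
    push_cast at this
    rw [this]
    field_simp
  have hc : 0 ≤ ∑' j, eps j * rad j ^ (1 / 64 : ℝ) := tsum_nonneg fun j =>
    mul_nonneg (eps_pos _).le (rpow_nonneg (by linarith [rad_ge j]) _)
  refine ⟨(∑' j, eps j * rad j ^ (1 / 64 : ℝ) + 1) * (2 ^ (3 + 1 / 64 : ℝ) / Vb 1),
    by positivity, fun d hd => ?_⟩
  have h1 := hasSum_le (fun j => ?_) (summ d).hasSum
    (hs.hasSum.mul_right (2 ^ (3 + 1 / 64 : ℝ) / Vb 1 * d ^ (-3 - 1 / 64 : ℝ)))
  · refine le_trans h1 ?_
    rw [mul_assoc]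
    exact mul_le_mul_of_nonneg_right (by linarith) (by positivity)
  · have hr : 0 < rad j := by linarith [rad_ge j]
    rw [mul_assoc]
    refine mul_le_mul_of_nonneg_left ?_ (eps_pos j).le
    rcases le_or_gt (2 * rad j) d with h | h
    · rw [kac_zero h hr]; positivity
    · refine (kac_le hr d).trans ?_
      have k1 := rpow_le_rpow_of_nonpos hd h.le (by norm_num : (-3 - 1 / 64 : ℝ) ≤ 0)
      refine le_trans (le_of_eq ?_) (mul_le_mul_of_nonneg_left
        (mul_le_mul_of_nonneg_left k1 (by positivity)) (by positivity))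
      rw [mul_rpow (by norm_num) hr.le, show (-3 - 1 / 64 : ℝ) = -(3 + 1 / 64) by ring,
        rpow_neg (by norm_num), rpow_neg hr.le, rpow_add hr, rpow_ofNat]
      have := rpow_pos_of_pos hr (1 / 64)
      have := rpow_pos_of_pos (two_pos (α := ℝ)) (3 + 1 / 64)
      field_simp

end Vale.Agent.P171
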