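import Vale.Agent.P171.Geom

/-! The Kac potentials: normalised overlap volume of two balls. -/

namespace Vale.Agent.P171

open MeasureTheory Finset Real Metric
open scoped ENNReal

/-- The kernel of a radial potential. -/
noncomputable def F (φ : ℝ → ℝ) (x y : E3) : ℝ := φ (dist x y)

theorem meas_F {φ : ℝ → ℝ} (h : Measurable φ) : Measurable (Function.uncurry (F φ)) :=
  h.comp measurable_dist

/-- A unit vector. -/
noncomputable def e0 : E3 := EuclideanSpace.single 0 1

/-- Volume of a ball. -/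
noncomputable def Vb (r : ℝ) : ℝ := volume.real (ball (0 : E3) r)

theorem real_ball (x : E3) (r : ℝ) : volume.real (ball x r) = Vb r := by
  rw [Vb, Measure.real, Measure.real, Measure.addHaar_ball_center]

theorem Vb_pos {r : ℝ} (hr : 0 < r) : 0 < Vb r :=
  ENNReal.toReal_pos (measure_ball_pos _ _ hr).ne' measure_ball_lt_top.ne

theorem Vb_eq {r : ℝ} (hr : 0 < r) : Vb r = r ^ 3 * Vb 1 := by
  rw [Vb, Vb, Measure.real, Measure.real, Measure.addHaar_ball_of_pos _ _ hr, ENNReal.toReal_mul,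
    ENNReal.toReal_ofReal (by positivity)]
  simp

/-- The Kac potential of range `2 r`. -/
noncomputable def kac (r d : ℝ) : ℝ := volume.real (ball (0 : E3) r ∩ ball (d • e0) r) / Vb r ^ 2

theorem kac_nonneg (r d : ℝ) : 0 ≤ kac r d := div_nonneg measureReal_nonneg (sq_nonneg _)

theorem kac_le {r : ℝ} (hr : 0 < r) (d : ℝ) : kac r d ≤ 1 / (r ^ 3 * Vb 1) := by
  have h1 := Vb_pos hr
  rw [← Vb_eq hr, kac, div_le_div_iff₀ (by positivity) h1, one_mul, sq]
  exact mul_le_mul_of_nonneg_right
    (measureReal_mono Set.inter_subset_left measure_ball_lt_top.ne) h1.le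

theorem norm_e0 : ‖e0‖ = 1 := by simp [e0]

theorem kac_zero {r d : ℝ} (hd : 2 * r ≤ d) (hr : 0 < r) : kac r d = 0 := by
  have : Disjoint (ball (0 : E3) r) (ball (d • e0) r) := ball_disjoint_ball (by
    rw [dist_zero_left, norm_smul, norm_e0, Real.norm_of_nonneg (by linarith)]; linarith)
  rw [kac, this.inter_eq]; simp

theorem meas_kac (r : ℝ) : Measurable (kac r) := by
  have hS : MeasurableSet {p : ℝ × E3 | p.2 ∈ ball (0 : E3) r ∩ ball (p.1 • e0) r} := by
    simp only [Set.mem_inter_iff, mem_ball]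
    exact (measurableSet_lt (f := fun p : ℝ × E3 => dist p.2 0) (by fun_prop)
      measurable_const).inter (measurableSet_lt (f := fun p : ℝ × E3 => dist p.2 (p.1 • e0))
        (by fun_prop) measurable_const)
  exact ((measurable_measure_prodMk_left hS).ennreal_toReal).div_const _

theorem kac_dist (r : ℝ) (x y : E3) :
    kac r (dist x y) = volume.real (ball x r ∩ ball y r) / Vb r ^ 2 := by
  rw [kac]
  congr 1
  have hn : ‖dist x y • e0‖ = ‖y - x‖ := by
    rw [norm_smul, norm_e0, Real.norm_of_nonneg dist_nonneg, mul_one, dist_comm, dist_eq_norm]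
  set R := (ℝ ∙ (dist x y • e0 - (y - x)))ᗮ.reflection with hR
  have h1 : R (dist x y • e0) = y - x := Submodule.reflection_sub hn
  have hp : MeasurePreserving (fun z : E3 => x + R z) volume volume :=
    (measurePreserving_add_left volume x).comp R.measurePreserving
  rw [← hp.measureReal_preimage (s := ball x r ∩ ball y r)
    (measurableSet_ball.inter measurableSet_ball).nullMeasurableSet]
  congr 1
  ext z
  simp only [Set.mem_inter_iff, mem_ball, Set.mem_preimage, dist_eq_norm (x + R z), dist_eq_norm z,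
    sub_zero, add_sub_cancel_left, LinearIsometryEquiv.norm_map]
  rw [show x + R z - y = R z - (y - x) by abel, ← h1, ← map_sub, LinearIsometryEquiv.norm_map]

/-- Indicator of a ball. -/
noncomputable def I (r : ℝ) (x y : E3) : ℝ := (ball x r).indicator 1 y

theorem I_nonneg (r : ℝ) (x y : E3) : 0 ≤ I r x y := Set.indicator_nonneg (fun _ _ => zero_le_one) _

theorem I_mul (r : ℝ) (x x' y : E3) :
    I r x y * I r x' y = (ball x r ∩ ball x' r).indicator 1 y := by
  rw [Set.inter_indicator_one]; rfl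

theorem int_ind {S : Set E3} (hS : MeasurableSet S) (h : volume S ≠ ∞) :
    Integrable (S.indicator (1 : E3 → ℝ)) :=
  (integrable_indicator_iff hS).2 (integrableOn_const h)

theorem int_I (r : ℝ) (x : E3) : Integrable (I r x) :=
  int_ind measurableSet_ball measure_ball_lt_top.ne

theorem integral_I (r : ℝ) (x : E3) : ∫ y, I r x y = Vb r := by
  rw [← real_ball x]; exact integral_indicator_one measurableSet_ball

theorem int_II (r : ℝ) (x x' : E3) : Integrable fun y => I r x y * I r x' y := by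
  simp only [I_mul]
  exact int_ind (measurableSet_ball.inter measurableSet_ball)
    (measure_ne_top_of_subset Set.inter_subset_left measure_ball_lt_top.ne)

theorem W_kac (r : ℝ) {N : ℕ} (x : Fin N → E3) :
    Integrable (fun y => (∑ i, I r (x i) y) ^ 2) ∧
      W (F (kac r)) (cfg x) = (∫ y, (∑ i, I r (x i) y) ^ 2) / Vb r ^ 2 := by
  simp only [sq, sum_mul_sum]
  refine ⟨integrable_finsetSum _ fun i _ => integrable_finsetSum _ fun j _ => int_II _ _ _, ?_⟩
  rw [W_cfg, integral_finsetSum _ fun i _ => integrable_finsetSum _ fun j _ => int_II _ _ _,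
    sum_div]
  refine sum_congr rfl fun i _ => ?_
  rw [integral_finsetSum _ fun j _ => int_II _ _ _, sum_div]
  refine sum_congr rfl fun j _ => ?_
  simp only [I_mul]
  rw [integral_indicator_one (measurableSet_ball.inter measurableSet_ball), F, kac_dist, sq]

theorem kac_lower {r ℓ : ℝ} (hr : 0 < r) (hℓ : 0 ≤ ℓ) (t : ℝ) (m : Multiset E3)
    (hm : ∀ x ∈ m, x ∈ box ℓ) : 2 * t * m.card - t ^ 2 * (ℓ + 2 * r) ^ 3 ≤ W (F (kac r)) m := by
  obtain ⟨N, x, rfl⟩ := cfg_surj m
  obtain ⟨h1, h2⟩ := W_kac r x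
  have hV := Vb_pos hr
  set B := cube (fun _ => -r) (ℓ + 2 * r) with hB
  have i1 : Integrable fun y => 2 * t * Vb r * ∑ i, I r (x i) y :=
    (integrable_finsetSum _ fun i _ => int_I _ _).const_mul _
  have i2 : Integrable fun y => (t * Vb r) ^ 2 * B.indicator 1 y :=
    (int_ind (meas_cube _ _) (vol_cube_ne _ _)).const_mul _
  have h3 := integral_mono (i1.sub i2) h1 fun y => by
    simp only [Pi.sub_apply]
    by_cases hy : y ∈ B
    · rw [Set.indicator_of_mem hy]
      simp only [Pi.one_apply]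
      nlinarith [sq_nonneg (∑ i, I r (x i) y - t * Vb r)]
    · have : ∀ i, I r (x i) y = 0 := fun i => Set.indicator_of_notMem (fun h => hy fun j => by
        have h4 := abs_lt.1 ((coord_le_dist y (x i) j).trans_lt h)
        have h5 := hm _ (mem_cfg x i) j
        constructor <;> linarith [h4.1, h4.2, h5.1, h5.2]) _
      rw [Set.indicator_of_notMem hy]
      simp [this]
  simp only [Pi.sub_apply] at h3
  rw [integral_sub i1 i2, integral_const_mul, integral_const_mul,
    integral_finsetSum _ fun i _ => int_I _ _, integral_indicator_one (meas_cube _ _),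
    real_cube _ (by linarith)] at h3
  simp only [integral_I, sum_const, card_univ, Fintype.card_fin, nsmul_eq_mul] at h3
  rw [h2, card_cfg, le_div_iff₀ (by positivity)]
  refine le_of_eq_of_le ?_ h3
  ring

theorem kac_upper {r : ℝ} (hr : 0 < r) {M : ℕ} (hM : 0 < M) (s : ℤ) (m : Multiset E3) :
    W (F (kac r)) m ≤ (1 + 2 * M / r) ^ 3 / (M : ℝ) ^ 3 * W (K M s) m := by
  classical
  obtain ⟨N, x, rfl⟩ := cfg_surj m
  obtain ⟨h1, h2⟩ := W_kac r x
  have hV := Vb_pos hr
  have hM' : (0 : ℝ) < M := by exact_mod_cast hM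
  have i1 : Integrable fun y => Vb (r + 2 * M) / (M : ℝ) ^ 3 *
      ∑ i, ∑ j, K M s (x i) (x j) * I r (x i) y :=
    (integrable_finsetSum _ fun i _ => integrable_finsetSum _ fun j _ =>
      (int_I _ _).const_mul _).const_mul _
  have h3 := integral_mono h1 i1 fun y => by
    set S := univ.filter fun i => y ∈ ball (x i) r with hS
    have e1 : ∑ i, I r (x i) y = S.card := by
      simp only [I, Set.indicator_apply, Pi.one_apply, sum_boole, hS]
    have e2 := cs_blocks S x hM s (B := ball y (r + 2 * M)) measure_ball_lt_top.ne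
      fun i hi z hz => by
        have h4 : dist y (x i) < r := (mem_filter.1 hi).2
        have h5 := dist_of_lab hM hz
        rw [mem_ball]
        linarith [dist_triangle_right z y (x i)]
    have e3 : ∑ i ∈ S, ∑ j ∈ S, K M s (x i) (x j) ≤
        ∑ i, ∑ j, K M s (x i) (x j) * I r (x i) y := by
      refine le_trans (sum_le_sum fun i hi => ?_) (sum_le_univ_sum_of_nonneg (s := S)
        fun i => sum_nonneg fun j _ => mul_nonneg (K_nonneg _ _ _ _) (I_nonneg _ _ _))
      rw [I, Set.indicator_of_mem (mem_filter.1 hi).2]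
      simp only [Pi.one_apply, mul_one]
      exact sum_le_univ_sum_of_nonneg fun j => K_nonneg _ _ _ _
    rw [real_ball] at e2
    simp only [e1]
    rw [div_mul_eq_mul_div, le_div_iff₀ (by positivity)]
    have := mul_le_mul_of_nonneg_left e3 (Vb_pos (by positivity : 0 < r + 2 * M)).le
    linarith
  rw [integral_const_mul, integral_finsetSum _ fun i _ => integrable_finsetSum _ fun j _ =>
      (int_I _ _).const_mul _] at h3
  have e4 : ∀ i, ∫ y, ∑ j, K M s (x i) (x j) * I r (x i) y =
      (∑ j, K M s (x i) (x j)) * Vb r := fun i => by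
    simp only [← sum_mul, integral_const_mul, integral_I]
  simp only [e4] at h3
  rw [← sum_mul] at h3
  rw [h2, W_cfg, div_le_iff₀ (by positivity)]
  refine h3.trans (le_of_eq ?_)
  rw [Vb_eq (by positivity : 0 < r + 2 * M), Vb_eq hr]
  field_simp

/-- Attractive tails dominated by `θ Q`. -/
structure Att (θ : ℝ) (ψ : ℝ → ℝ) : Prop where
  meas : Measurable ψ
  nonneg : ∀ d, 0 ≤ ψ d
  le : ∀ m, W (F ψ) m ≤ θ * Q m

theorem att_kac {r : ℝ} (hr : 2 ≤ r) : Att 8 (kac r) := by
  refine ⟨meas_kac r, kac_nonneg r, fun m => (kac_upper (by linarith) one_pos 0 m).trans ?_⟩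
  refine mul_le_mul_of_nonneg_right ?_ (Q_nonneg m)
  have h1 : 2 / r ≤ 1 := (div_le_one (by linarith)).2 hr
  have h2 : 0 ≤ 2 / r := by positivity
  simp only [Nat.cast_one, mul_one, one_pow, div_one]
  calc _ ≤ (2 : ℝ) ^ 3 := pow_le_pow_left₀ (by linarith) (by linarith) 3
    _ = 8 := by norm_num

theorem att_zero : Att 0 fun _ => 0 := ⟨measurable_const, fun _ => le_rfl, fun m => by
  have := W_const 0 m
  simp only [zero_mul] at this ⊢
  exact this.le⟩

theorem Att.mono {θ θ' : ℝ} {ψ : ℝ → ℝ} (h : Att θ ψ) (hθ : θ ≤ θ') : Att θ' ψ :=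
  ⟨h.meas, h.nonneg, fun m => (h.le m).trans (mul_le_mul_of_nonneg_right hθ (Q_nonneg m))⟩

theorem Att.add {θ θ' : ℝ} {ψ ψ' : ℝ → ℝ} (h : Att θ ψ) (h' : Att θ' ψ') :
    Att (θ + θ') fun d => ψ d + ψ' d :=
  ⟨h.meas.add h'.meas, fun d => add_nonneg (h.nonneg d) (h'.nonneg d), fun m => by
    have := W_add_fun (F ψ) (F ψ') m
    change W (fun x y => F ψ x y + F ψ' x y) m ≤ _
    linarith [h.le m, h'.le m]⟩

theorem Att.smul {θ c : ℝ} {ψ : ℝ → ℝ} (h : Att θ ψ) (hc : 0 ≤ c) :
    Att (c * θ) fun d => c * ψ d :=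
  ⟨h.meas.const_mul c, fun d => mul_nonneg hc (h.nonneg d), fun m => by
    have := W_mul_fun c (F ψ) m
    change W (fun x y => c * F ψ x y) m ≤ _
    rw [this, mul_assoc]
    exact mul_le_mul_of_nonneg_left (h.le m) hc⟩

theorem att_tsum {θ : ℕ → ℝ} {ψ : ℕ → ℝ → ℝ} (h : ∀ j, Att (θ j) (ψ j)) {Θ : ℝ}
    (hθ : HasSum θ Θ) (hs : ∀ d, Summable fun j => ψ j d) : Att Θ fun d => ∑' j, ψ j d := by
  refine ⟨measurable_of_tendsto_metrizable (f := fun n d => ∑ j ∈ range n, ψ j d)
    (fun n => Finset.measurable_sum _ fun j _ => (h j).meas)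
    (tendsto_pi_nhds.2 fun d => (hs d).hasSum.tendsto_sum_nat),
    fun d => tsum_nonneg fun j => (h j).nonneg d, fun m => ?_⟩
  obtain ⟨N, x, rfl⟩ := cfg_surj m
  have h1 : HasSum (fun j => W (F (ψ j)) (cfg x)) (W (F fun d => ∑' j, ψ j d) (cfg x)) := by
    simp only [W_cfg]
    exact hasSum_sum fun a _ => hasSum_sum fun b _ => (hs _).hasSum
  exact hasSum_le (fun j => (h j).le _) h1 (hθ.mul_right _)

open Classical in
theorem cross_le {θ : ℝ} {ψ : ℝ → ℝ} (h : Att θ ψ) (hθ : 0 ≤ θ) {w : ℕ}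
    (hw : ∀ d, (w : ℝ) ≤ d → ψ d = 0) {M : ℕ} (hM : 0 < M) (m : Multiset E3) :
    ∃ s ∈ range M, W (F ψ) m ≤
      W (fun x y => K M s x y * F ψ x y) m + 3 * (2 * w + 1) * θ / M * Q m := by
  obtain ⟨N, x, rfl⟩ := cfg_surj m
  have hM' : (0 : ℝ) < M := by exact_mod_cast hM
  set G : ℕ → ℝ := fun s => ∑ i, (if layer M w s (x i) then (1 : ℝ) else 0) *
    ∑ j, K 1 0 (x i) (x j) with hG
  have h1 : ∑ s ∈ range M, G s ≤ ∑ _s ∈ range M, 3 * (2 * w + 1) / M * Q (cfg x) := by
    rw [sum_const, card_range, nsmul_eq_mul, ← mul_assoc, mul_div_cancel₀ _ hM'.ne', Q, W_cfg,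
      mul_sum, sum_comm]
    refine sum_le_sum fun i _ => ?_
    rw [← sum_mul]
    exact mul_le_mul_of_nonneg_right (layer_count M w _) (sum_nonneg fun j _ => K_nonneg _ _ _ _)
  obtain ⟨s, hs, h2⟩ := exists_le_of_sum_le (nonempty_range_iff.2 hM.ne') h1
  refine ⟨s, hs, ?_⟩
  set S := univ.filter fun i => layer M w s (x i) with hS
  have h3 := h.le (S.val.map x)
  rw [Q, W_map, W_map] at h3
  have h4 : ∑ i ∈ S, ∑ j ∈ S, K 1 0 (x i) (x j) ≤ G s := by
    simp only [hG, ite_mul, one_mul, zero_mul]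
    rw [← sum_filter]
    exact sum_le_sum fun i _ => sum_le_univ_sum_of_nonneg fun j => K_nonneg _ _ _ _
  have h5 : W (F ψ) (cfg x) ≤ W (fun x y => K M s x y * F ψ x y) (cfg x) +
      ∑ i ∈ S, ∑ j ∈ S, F ψ (x i) (x j) := by
    rw [W_cfg, W_cfg, hS, sum_filter, ← sum_add_distrib]
    refine sum_le_sum fun i _ => ?_
    have key : ∀ j, F ψ (x i) (x j) ≤ K M s (x i) (x j) * F ψ (x i) (x j) +
        if layer M w s (x i) ∧ layer M w s (x j) then F ψ (x i) (x j) else 0 := fun j => by
      have h0 : 0 ≤ F ψ (x i) (x j) := h.nonneg _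
      by_cases hl : lab M s (x i) = lab M s (x j)
      · rw [K, if_pos hl]
        split_ifs <;> linarith
      · rw [K, if_neg hl]
        rcases lt_or_ge (dist (x i) (x j)) w with hd | hd
        · rw [if_pos ⟨layer_of_ne hM hl hd, layer_of_ne hM (Ne.symm hl) (dist_comm (x i) _ ▸ hd)⟩]
          linarith
        · simp [F, hw _ hd]
    refine (sum_le_sum fun j _ => key j).trans (le_of_eq ?_)
    rw [sum_add_distrib, sum_filter]
    split_ifs with hi <;> simp [hi]
  have h6 := mul_le_mul_of_nonneg_left (h4.trans h2) hθ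
  refine h5.trans (add_le_add_right (h3.trans (h6.trans (le_of_eq ?_))) _)
  ring

end Vale.Agent.P171
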