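import Vale.Agent.P171.Press

/-! Quantitative Lebowitz-Penrose bounds. -/

namespace Vale.Agent.P171

open MeasureTheory Finset Real Filter Topology
open scoped ENNReal

/-- Soft core. -/
noncomputable def core (A d : ℝ) : ℝ := if d < 2 then A else 0

/-- Soft core minus an attractive tail. -/
noncomputable def pot (A : ℝ) (ψ : ℝ → ℝ) (d : ℝ) : ℝ := core A d - ψ d

theorem core_nonneg {A : ℝ} (hA : 0 ≤ A) (d : ℝ) : 0 ≤ core A d := by
  unfold core; split_ifs <;> simp [hA]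

theorem meas_core (A : ℝ) : Measurable (core A) :=
  Measurable.ite measurableSet_Iio measurable_const measurable_const

theorem W_core {A : ℝ} (hA : 0 ≤ A) (m : Multiset E3) : A * Q m ≤ W (F (core A)) m := by
  rw [Q, ← W_mul_fun]
  refine W_mono fun x _ y _ => ?_
  unfold K
  split_ifs with h
  · have := dist_of_lab one_pos h
    rw [F, core, if_pos (by simpa using this), mul_one]
  · rw [mul_zero]; exact core_nonneg hA _

theorem W_pot (A : ℝ) (ψ : ℝ → ℝ) (m : Multiset E3) :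
    W (F (pot A ψ)) m = W (F (core A)) m - W (F ψ) m := W_sub_fun _ _ m

theorem W_pot_add (A : ℝ) (ψ χ : ℝ → ℝ) (ε : ℝ) (m : Multiset E3) :
    W (F (pot A fun d => ψ d + ε * χ d)) m = W (F (pot A ψ)) m - ε * W (F χ) m := by
  rw [← W_mul_fun, ← W_sub_fun]
  congr 1
  funext x y
  simp only [F, pot]; ring

variable {A θ : ℝ} {ψ : ℝ → ℝ}

theorem Att.W_ge (h : Att θ ψ) (hA : 0 ≤ A) (m : Multiset E3) :
    (A - θ) * Q m ≤ W (F (pot A ψ)) m := by
  rw [W_pot]; linarith [W_core hA m, h.le m]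

theorem Att.good (h : Att θ ψ) (hθ : 0 ≤ θ) (hA : θ ≤ A) : Good (pot A ψ) :=
  ⟨(meas_core A).sub h.meas, fun d hd => by
    rw [pot, core, if_neg (not_lt.2 hd)]; linarith [h.nonneg d],
    fun m => (mul_nonneg (by linarith) (Q_nonneg m)).trans (h.W_ge (by linarith) m)⟩

theorem lp_lower {ε r : ℝ} (h : Att θ ψ) (hθ : 0 ≤ θ) (hε : 0 ≤ ε) (hr : 2 ≤ r)
    (hA : θ + ε * 8 ≤ A) (μ t : ℝ) :
    pr (pot A ψ) (μ + ε * t) - ε * t ^ 2 / 2 ≤ pr (pot A fun d => ψ d + ε * kac r d) μ := by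
  have g1 := h.good hθ (by linarith : θ ≤ A)
  have g2 := (h.add ((att_kac hr).smul hε)).good (by linarith) hA
  have := pr_cmp (μ := μ + ε * t) (μ₀ := μ) (μ₁ := μ) (a := 1) (b := 0) (c := ε * t ^ 2 / 2)
    (d := 2 * r) (e := 0) g1 g2 g2 fun L hL => by
      have := LX_mono (ν := volume) (μ := μ + ε * t) (μ' := μ)
        (c := ε * t ^ 2 / 2 * (L + 2 * r) ^ 3) (f := F (pot A ψ)) (meas_box L)
        (meas_F g2.meas) (g2.fin L) fun m hm => by
          rw [W_pot_add]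
          have := mul_le_mul_of_nonneg_left
            (kac_lower (by linarith : 0 < r) (by linarith : 0 ≤ L) t m hm) hε
          linarith
      simp only [LB]
      linarith
  linarith

/-- Decoupled interaction. -/
noncomputable def dec (φ : ℝ → ℝ) (τ c : ℝ) (M : ℕ) (s : ℤ) (x y : E3) : ℝ :=
  K M s x y * (F φ x y - (τ * K 1 0 x y + c))

theorem meas_dec {φ : ℝ → ℝ} (h : Measurable φ) (τ c : ℝ) (M : ℕ) (s : ℤ) :
    Measurable (Function.uncurry (dec φ τ c M s)) :=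
  (meas_K M s).mul ((meas_F h).sub (((meas_K 1 0).const_mul τ).add_const c))

theorem exists_shift {ε r τ : ℝ} (h : Att θ ψ) (hθ : 0 ≤ θ) (hA : 0 ≤ A) {w M : ℕ}
    (hw : ∀ d, (w : ℝ) ≤ d → ψ d = 0) (hM : 0 < M) (hMr : M ≤ r) (hε : 0 ≤ ε)
    (hκ : 3 * (2 * w + 1) * θ / M ≤ τ) (hε' : 26 * ε * M / r ≤ τ) (m : Multiset E3) :
    ∃ s ∈ range M, W (dec (pot A ψ) τ ((ε + τ) / (M : ℝ) ^ 3) M s) m ≤
      W (F (pot A fun d => ψ d + ε * kac r d)) m := by
  obtain ⟨s, hs, h1⟩ := cross_le h hθ hw hM m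
  refine ⟨s, hs, ?_⟩
  have hM' : (0 : ℝ) < M := by exact_mod_cast hM
  have hr : 0 < r := by linarith
  have e1 : dec (pot A ψ) τ ((ε + τ) / (M : ℝ) ^ 3) M s = fun x y =>
      K M s x y * F (core A) x y - (K M s x y * F ψ x y +
        (τ * K 1 0 x y + (ε + τ) / (M : ℝ) ^ 3 * K M s x y)) := by
    funext x y
    have : K M s x y * K 1 0 x y = K 1 0 x y := by
      by_cases hl : lab 1 0 x = lab 1 0 y
      · simp [K, lab_of_cell M s hl]
      · simp [K, hl]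
    simp only [dec, F, pot]
    linear_combination (-τ) * this
  rw [e1, W_sub_fun, W_add_fun, W_add_fun, W_mul_fun, W_mul_fun, W_pot_add, W_pot]
  have h2 : W (fun x y => K M s x y * F (core A) x y) m ≤ W (F (core A)) m :=
    W_mono fun x _ y _ => by
      unfold K
      split_ifs
      · rw [one_mul]
      · rw [zero_mul]; exact core_nonneg hA _
  have h3 := mul_le_mul_of_nonneg_right hκ (Q_nonneg m)
  have h4 := mul_le_mul_of_nonneg_left (kac_upper hr hM s m) hε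
  have h5 : ε * ((1 + 2 * M / r) ^ 3 / (M : ℝ) ^ 3) ≤ (ε + τ) / (M : ℝ) ^ 3 := by
    rw [← mul_div_assoc]
    refine div_le_div_of_nonneg_right ?_ (by positivity)
    have k1 : M / r ≤ 1 := (div_le_one hr).2 hMr
    have k0 : 0 ≤ M / r := by positivity
    rw [mul_div_assoc] at hε' ⊢
    set u := M / r
    have k2 : (1 + 2 * u) ^ 3 ≤ 1 + 26 * u := by nlinarith [mul_nonneg k0 k0]
    nlinarith
  have h6 := mul_le_mul_of_nonneg_right h5 (W_K_nonneg M s m)
  rw [← Q]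
  linarith

theorem block_le {ε τ Tm P μ : ℝ} (h : Att θ ψ) (hθ : 0 ≤ θ) {M : ℕ} (hM : 0 < M) (hε : 0 ≤ ε)
    (hA : θ + ε + 2 ≤ A) (hτ0 : 0 ≤ τ) (hτ : τ ≤ 1) (hT : exp (μ + 1) ≤ Tm)
    (hP : ∀ t ∈ Set.Icc 0 Tm, pr (pot A ψ) (μ + ε * t) - ε * t ^ 2 / 2 ≤ P) (s : ℤ)
    (k : Fin 3 → ℤ) :
    Xs volume (blk M s k) μ (dec (pot A ψ) τ ((ε + τ) / (M : ℝ) ^ 3) M s) ≤ ENNReal.ofReal
      (exp ((M : ℝ) ^ 3 * (P + τ * exp μ + (Tm + 4 + 26 * exp (μ + ε * Tm)) / M))) := by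
  have g1 := h.good hθ (by linarith : θ ≤ A)
  have hM' : (1 : ℝ) ≤ M := by exact_mod_cast hM
  have hV : (0 : ℝ) < (M : ℝ) ^ 3 := by positivity
  have hT0 : 0 < Tm := (exp_pos _).trans_le hT
  have hP0 : 0 ≤ P := by
    have := hP 0 ⟨le_rfl, hT0.le⟩
    have := g1.pr_nonneg (μ := μ + ε * 0)
    linarith
  have hN : ∀ m : Multiset E3, (∀ x ∈ m, x ∈ blk M s k) →
      (m.card : ℝ) ^ 2 / (M : ℝ) ^ 3 ≤ Q m := fun m hm =>
    (div_le_iff₀' hV).2 (sq_card_le hM s k m hm)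
  have hg : ∀ m : Multiset E3, (∀ x ∈ m, x ∈ blk M s k) →
      2 * Q m ≤ W (fun x y => F (pot A ψ) x y - ε / (M : ℝ) ^ 3) m := fun m hm => by
    rw [W_sub_fun, W_const, div_mul_eq_mul_div, mul_div_assoc]
    have := h.W_ge (by linarith : 0 ≤ A) m
    nlinarith [mul_le_mul_of_nonneg_left (hN m hm) hε, Q_nonneg m]
  have hg0 : ∀ m : Multiset E3, (∀ x ∈ m, x ∈ blk M s k) →
      0 ≤ W (fun x y => F (pot A ψ) x y - ε / (M : ℝ) ^ 3) m := fun m hm => by
    linarith [hg m hm, Q_nonneg m]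
  have h1 := Xs_meanfield (μ := μ) (P := (M : ℝ) ^ 3 * P + 26 * M ^ 2 * exp (μ + ε * Tm))
    (meas_blk M s k) (vol_blk_ne hM s k) (real_blk hM s k) hV (meas_F g1.meas) hg0
    (fun m _ => g1.stab m) hT (by positivity) fun t ht => by
      have k1 : LX volume (blk M s k) (μ + ε * t) (F (pot A ψ)) ≤ LB (pot A ψ) (μ + ε * t) M :=
        LX_le ((Xs_mono_set (blk_sub_cube hM s k)).trans
          ((Xs_cube g1.meas _ _).trans (g1.Xs_box _)).le)
      have k2 := g1.LB_le_pr (μ := μ + ε * t) (by linarith : (0 : ℝ) ≤ M)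
      have k3 := g1.pr_le_exp (μ := μ + ε * t)
      have k4 : exp (μ + ε * t) ≤ exp (μ + ε * Tm) := exp_le_exp.2 (by nlinarith [ht.2])
      have k5 := g1.pr_nonneg (μ := μ + ε * t)
      have k6 := mul_le_mul_of_nonneg_left (hP t ht) hV.le
      have k7 : ((M : ℝ) + 2) ^ 3 ≤ M ^ 3 + 26 * M ^ 2 := by nlinarith
      have k8 := mul_le_mul_of_nonneg_right k7 k5
      have k9 := mul_le_mul_of_nonneg_left (k3.trans k4) (by positivity : (0 : ℝ) ≤ 26 * M ^ 2)
      linarith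
  have h2 : Tm * (M : ℝ) ^ 3 + 2 ≤ exp ((Tm + 4) * M ^ 2) := by
    have k1 : (M : ℝ) ^ 3 ≤ exp (3 * M) := by
      have := pow_le_pow_left₀ (by linarith) (by linarith [add_one_le_exp (M : ℝ)] :
        (M : ℝ) ≤ exp M) 3
      rwa [← exp_nat_mul] at this
    have k2 : 1 ≤ (M : ℝ) ^ 3 := one_le_pow₀ hM'
    have k3 : (Tm + 2) * (M : ℝ) ^ 3 ≤ exp (Tm + 1) * exp (3 * M) :=
      mul_le_mul (by linarith [add_one_le_exp (Tm + 1)]) k1 hV.le (exp_pos _).le
    rw [← exp_add] at k3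
    have k4 : (M : ℝ) ≤ M ^ 2 := by nlinarith
    have k5 : exp (Tm + 1 + 3 * M) ≤ exp ((Tm + 4) * M ^ 2) := exp_le_exp.2 (by nlinarith)
    linarith
  have h3 := LX_le (h1.trans (ENNReal.ofReal_le_ofReal
    ((mul_le_mul_of_nonneg_right h2 (exp_pos _).le).trans (exp_add _ _).ge)))
  refine (LX_damp (meas_blk M s k) (vol_blk_ne hM s k) ((meas_F g1.meas).sub_const _) hg0 hτ0 hτ
    fun m hm => ?_).trans (ENNReal.ofReal_le_ofReal (exp_le_exp.2 ?_))
  · have e1 : W (fun x y => (F (pot A ψ) x y - ε / (M : ℝ) ^ 3) -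
        (τ * K 1 0 x y + τ / (M : ℝ) ^ 3)) m ≤
        W (dec (pot A ψ) τ ((ε + τ) / (M : ℝ) ^ 3) M s) m := W_mono fun x hx y hy => by
      have : lab M s x = lab M s y := Eq.trans (hm x hx) (Eq.symm (hm y hy))
      rw [dec, show K M s x y = 1 from if_pos this]
      exact le_of_eq (by ring)
    rw [W_sub_fun, W_add_fun, W_mul_fun, W_const, ← Q, div_mul_eq_mul_div, mul_div_assoc] at e1
    nlinarith [mul_le_mul_of_nonneg_left (hN m hm) hτ0, mul_le_mul_of_nonneg_left (hg m hm) hτ0]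
  · rw [real_blk hM]
    have : (M : ℝ) ^ 3 * ((Tm + 4 + 26 * exp (μ + ε * Tm)) / M) =
        M ^ 2 * (Tm + 4 + 26 * exp (μ + ε * Tm)) := by field_simp
    linarith

theorem box_le {f : E3 → E3 → ℝ} {M : ℕ} (hM : 0 < M) (s : ℤ) {μ B L : ℝ} (hB : 0 ≤ B)
    (hL : 0 ≤ L) (hf : Measurable (Function.uncurry f))
    (hc : ∀ x y, lab M s x ≠ lab M s y → 0 ≤ f x y)
    (h : ∀ k, Xs volume (blk M s k) μ f ≤ ENNReal.ofReal (exp ((M : ℝ) ^ 3 * B))) :
    Xs volume (box L) μ f ≤ ENNReal.ofReal (exp (B * (L + 2 * M) ^ 3)) := by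
  have hfin : (lab M s '' box L).Finite := by
    refine ((Fintype.piFinset fun _ : Fin 3 => Finset.Icc 0 ⌊L⌋).finite_toSet.image
      fun c i => (c i - s) / M).subset ?_
    rintro _ ⟨x, hx, rfl⟩
    exact ⟨fun i => ⌊x i⌋, mem_coe.2 (Fintype.mem_piFinset.2 fun i =>
      mem_Icc.2 ⟨Int.floor_nonneg.2 (hx i).1, Int.floor_mono (hx i).2⟩), rfl⟩
  have h1 : box L ⊆ ⋃ k ∈ hfin.toFinset, blk M s k := fun x hx =>
    Set.mem_iUnion₂.2 ⟨lab M s x, hfin.mem_toFinset.2 ⟨x, hx, rfl⟩, rfl⟩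
  have h2 := card_mul_le hM s hfin.toFinset (vol_cube_ne (fun _ => -M) (L + 2 * M))
    fun k hk y hy i => by
      obtain ⟨x, hx, rfl⟩ := hfin.mem_toFinset.1 hk
      have := abs_le.1 (coord_of_lab hM hy i)
      constructor <;> linarith [(hx i).1, (hx i).2, this.1, this.2]
  rw [real_cube _ (by positivity)] at h2
  refine (Xs_mono_set h1).trans ((Xs_biUnion_le _ (meas_blk M s) (blk_disj M s) hf
    fun k l hkl x hx y hy => hc x y fun e => hkl (Eq.trans (Eq.symm hx) (e.trans hy))).trans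
    ((prod_le_pow_card _ _ _ fun k _ => h k).trans ?_))
  rw [← ENNReal.ofReal_pow (exp_pos _).le, ← exp_nat_mul]
  exact ENNReal.ofReal_le_ofReal (exp_le_exp.2 (by nlinarith))

theorem lp_upper {ε r τ Tm P μ : ℝ} (h : Att θ ψ) (hθ : 0 ≤ θ) {w M : ℕ}
    (hw : ∀ d, (w : ℝ) ≤ d → ψ d = 0) (hM : 0 < M) (hr : 2 ≤ r) (hMr : M ≤ r) (hε : 0 ≤ ε)
    (hA : θ + ε * 8 + 2 ≤ A) (hκ : 3 * (2 * w + 1) * θ / M ≤ τ) (hε' : 26 * ε * M / r ≤ τ)
    (hτ : τ ≤ 1) (hT : exp (μ + 1) ≤ Tm)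
    (hP : ∀ t ∈ Set.Icc 0 Tm, pr (pot A ψ) (μ + ε * t) - ε * t ^ 2 / 2 ≤ P) :
    pr (pot A fun d => ψ d + ε * kac r d) μ ≤
      P + (τ * exp μ + (Tm + 4 + 26 * exp (μ + ε * Tm)) / M) := by
  have g1 := h.good hθ (by linarith : θ ≤ A)
  have g2 := (h.add ((att_kac hr).smul hε)).good (A := A) (by linarith) (by linarith)
  have hτ0 : 0 ≤ τ := le_trans (by positivity) hκ
  have hT0 : 0 < Tm := (exp_pos _).trans_le hT
  have hP0 : 0 ≤ P := by
    have := hP 0 ⟨le_rfl, hT0.le⟩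
    have := g1.pr_nonneg (μ := μ + ε * 0)
    linarith
  have := pr_cmp (μ := μ) (μ₀ := μ) (μ₁ := μ) (a := 0) (b := 0)
    (c := P + τ * exp μ + (Tm + 4 + 26 * exp (μ + ε * Tm)) / M)
    (d := 2 * M) (e := M) g2 g2 g2 fun L hL => by
      simp only [zero_mul, zero_add]
      refine LX_le ?_
      have k1 : Xs volume (box L) μ (F (pot A fun d => ψ d + ε * kac r d)) ≤
          ∑ s ∈ range M, Xs volume (box L) μ (dec (pot A ψ) τ ((ε + τ) / (M : ℝ) ^ 3) M s) := by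
        simp only [Xs]
        rw [← Xi_sum _ fun s => meas_wt μ (meas_dec g1.meas _ _ _ _)]
        refine Xi_mono (ae_restrict_mem (meas_box L)) fun m _ => ?_
        obtain ⟨s, hs, k2⟩ := exists_shift h hθ (by linarith : 0 ≤ A) hw hM hMr hε hκ hε' m
        refine le_trans ?_ (single_le_sum (f := fun s : ℕ =>
          wt μ (dec (pot A ψ) τ ((ε + τ) / (M : ℝ) ^ 3) M s) m) (fun _ _ => zero_le) hs)
        exact ENNReal.ofReal_le_ofReal (exp_le_exp.2 (by linarith))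
      refine k1.trans ((sum_le_card_nsmul _ _ _ fun (s : ℕ) _ => box_le hM s (by positivity)
        (by linarith) (meas_dec g1.meas _ _ _ _) (fun x y hxy => by simp [dec, K, hxy])
        (block_le h hθ hM hε (by linarith) hτ0 hτ hT hP s)).trans ?_)
      rw [card_range, nsmul_eq_mul, ← ENNReal.ofReal_natCast,
        ← ENNReal.ofReal_mul (Nat.cast_nonneg _), exp_add _ (M : ℝ), mul_comm]
      exact ENNReal.ofReal_le_ofReal (mul_le_mul_of_nonneg_left
        (by linarith [add_one_le_exp (M : ℝ)]) (exp_pos _).le)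
  linarith

theorem pr_tail {χ : ℝ → ℝ} {s μ : ℝ} (h : Att θ ψ) (h' : Att s χ) (hθ : 0 ≤ θ) (hs0 : 0 ≤ s)
    (hs : s ≤ 1) (hA : θ + 1 ≤ A) :
    pr (pot A ψ) μ ≤ pr (pot A fun d => ψ d + χ d) μ ∧
      pr (pot A fun d => ψ d + χ d) μ ≤ pr (pot A ψ) μ + s * exp μ := by
  have g1 := h.good hθ (by linarith : θ ≤ A)
  have g2 := (h.add h').good (A := A) (by linarith) (by linarith)
  refine ⟨pr_mono g1 g2 fun d => ?_, pr_damp g1 g2 hs0 hs fun m => ?_⟩
  · simp only [pot]; linarith [h'.nonneg d]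
  · have e := W_pot_add A ψ χ 1 m
    simp only [one_mul] at e
    rw [e]
    have := h.W_ge (by linarith : 0 ≤ A) m
    nlinarith [h'.le m, Q_nonneg m, mul_nonneg hs0 (Q_nonneg m),
      mul_le_mul_of_nonneg_left this hs0]

theorem base_upper (hA : 0 ≤ A) : pr (pot A fun _ => 0) (A / 2) ≤ 1 := by
  have g1 := att_zero.good le_rfl hA
  have g0 := att_zero.good le_rfl (le_refl (0 : ℝ))
  have := pr_cmp (μ := A / 2) (μ₀ := 0) (μ₁ := 0) (a := 1) (b := 0) (c := 0) (d := 0)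
    (e := 0) g1 g0 g0 fun L _ => by
      have := LX_mono (ν := volume) (μ := A / 2) (μ' := 0) (c := 0) (f := F (pot A fun _ => 0))
        (meas_box L) (meas_F g0.meas) (g0.fin L) fun m _ => by
          have k1 := att_zero.W_ge hA m
          have k2 : F (pot 0 fun _ => 0) = fun _ _ => 0 := by
            funext x y; simp [F, pot, core]
          rw [k2, W_const]
          nlinarith [card_le_Q m]
      simpa [LB] using this
  have k := g0.pr_le_exp (μ := 0)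
  rw [exp_zero] at k
  linarith

theorem base_lower (hA : 0 ≤ A) (μ : ℝ) : (μ - A / 2) / 27 ≤ pr (pot A fun _ => 0) μ := by
  have g1 := att_zero.good le_rfl hA
  have h1 := g1.LB_le_pr (μ := μ) zero_le_one
  have h2 : μ - A / 2 ≤ LB (pot A fun _ => 0) μ 1 := by
    refine le_LX (g1.fin 1) (le_trans (le_of_eq ?_) (le_Xi 1))
    have : volume (box 1) = 1 := by rw [box_eq, vol_cube]; simp
    simp [T, wt, W, W2, F, pot, core, this]
  norm_num at h1
  linarith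

end Vale.Agent.P171
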