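import Vale.Agent.P171.Iter

/-! Link with the partition functions of the statement. -/

namespace Vale.Agent.P171

open MeasureTheory Finset Real Filter Topology
open scoped ENNReal

theorem W_eq_U (φ : ℝ → ℝ) {N : ℕ} (x : Fin N → E3) :
    W (F φ) (cfg x) = 2 * U φ x + N * φ 0 := by
  have h1 : ∀ i j, F φ (x i) (x j) = (if i < j then φ ‖x i - x j‖ else 0) +
      (if j < i then φ ‖x j - x i‖ else 0) + if i = j then φ 0 else 0 := fun i j => by
    rcases lt_trichotomy i j with h | h | h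
    · simp [F, h, h.not_gt, h.ne, dist_eq_norm]
    · simp [F, h]
    · simp [F, h, h.not_gt, h.ne', dist_eq_norm, norm_sub_rev]
  simp only [W_cfg, h1, sum_add_distrib]
  rw [sum_comm (f := fun i j => if j < i then φ ‖x j - x i‖ else 0)]
  simp [U]; ring

theorem boxN_eq (L : ℝ) (N : ℕ) : boxN L N = Set.pi Set.univ fun _ => box L := by
  ext x; simp [boxN]

theorem restrict_boxN (L : ℝ) (N : ℕ) : (volume : Measure (Fin N → E3)).restrict (boxN L N) =
    Measure.pi fun _ => volume.restrict (box L) := by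
  rw [boxN_eq, volume_pi, Measure.restrict_pi_pi]

theorem meas_U {φ : ℝ → ℝ} (h : Measurable φ) (N : ℕ) : Measurable fun x : Fin N → E3 => U φ x :=
  Finset.measurable_sum _ fun i _ => Finset.measurable_sum _ fun j _ => by
    split_ifs
    · exact h.comp (by fun_prop)
    · exact measurable_const

variable {φ : ℝ → ℝ}

theorem iter_wt (h : Good φ) {z : ℝ} (hz : 0 < z) (L : ℝ) (N : ℕ) :
    (T (volume.restrict (box L)))^[N] (wt (log z + φ 0 / 2) (F φ)) 0 =
      ENNReal.ofReal (z ^ N) * ∫⁻ x in boxN L N, ENNReal.ofReal (exp (-1 * U φ x)) := by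
  rw [iter_eq_lintegral (meas_wt _ (meas_F h.meas)), restrict_boxN,
    ← lintegral_const_mul' _ _ ENNReal.ofReal_ne_top]
  refine lintegral_congr fun x => ?_
  rw [wt, card_cfg, W_eq_U, ← ENNReal.ofReal_mul (by positivity), ← exp_log (pow_pos hz N),
    ← exp_add, log_pow]
  congr 2; ring

theorem Good.integrable (h : Good φ) (L : ℝ) (N : ℕ) :
    IntegrableOn (fun x : Fin N → E3 => exp (-1 * U φ x)) (boxN L N) := by
  refine ⟨(((meas_U h.meas N).const_mul _).exp).aestronglyMeasurable,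
    (hasFiniteIntegral_iff_ofReal (Eventually.of_forall fun x => (exp_pos _).le)).2 ?_⟩
  have h1 := P171.term_le (ν := volume) (μ := log 1 + φ 0 / 2) (meas_box L) (vol_box_ne L)
    (fun m _ => h.stab m) N
  rw [iter_wt h one_pos, one_pow, ENNReal.ofReal_one, one_mul] at h1
  exact h1.trans_lt (ENNReal.pow_lt_top ENNReal.ofReal_lt_top)

theorem Z_nonneg (β L : ℝ) (N : ℕ) : 0 ≤ Z φ β L N :=
  mul_nonneg (by positivity) (integral_nonneg fun _ => (exp_pos _).le)

theorem Good.term_eq (h : Good φ) {z : ℝ} (hz : 0 < z) (L : ℝ) (N : ℕ) :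
    ((N.factorial : ℝ≥0∞))⁻¹ *
      (T (volume.restrict (box L)))^[N] (wt (log z + φ 0 / 2) (F φ)) 0 =
      ENNReal.ofReal (z ^ N * Z φ 1 L N) := by
  rw [iter_wt h hz, Z, ENNReal.ofReal_mul (by positivity), ENNReal.ofReal_mul (by positivity),
    ofReal_integral_eq_lintegral_ofReal (h.integrable L N)
      (Eventually.of_forall fun x => (exp_pos _).le),
    ENNReal.ofReal_inv_of_pos (by positivity), ENNReal.ofReal_natCast, mul_left_comm]

theorem Good.grand (h : Good φ) {z : ℝ} (hz : 0 < z) (L : ℝ) :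
    Summable (fun N => z ^ N * Z φ 1 L N) ∧
      log (∑' N, z ^ N * Z φ 1 L N) = LB φ (log z + φ 0 / 2) L := by
  have h0 : ∀ N, 0 ≤ z ^ N * Z φ 1 L N := fun N => mul_nonneg (by positivity) (Z_nonneg _ _ _)
  have h1 : Xs volume (box L) (log z + φ 0 / 2) (F φ) =
      ∑' N, ENNReal.ofReal (z ^ N * Z φ 1 L N) := tsum_congr (h.term_eq hz L)
  have h2 : Summable fun N => z ^ N * Z φ 1 L N := by
    have := ENNReal.summable_toReal (h1 ▸ h.fin L)
    simpa only [ENNReal.toReal_ofReal (h0 _)] using this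
  refine ⟨h2, ?_⟩
  rw [LB, LX, h1, ← ENNReal.ofReal_tsum_of_nonneg h0 h2, ENNReal.toReal_ofReal (tsum_nonneg h0)]

theorem Good.stable (h : Good φ) : Stable φ :=
  ⟨φ 0 / 2, fun N x _ => by
    have := h.stab (cfg x)
    rw [W_eq_U] at this
    linarith⟩

theorem main : ∃ φ : ℝ → ℝ, Measurable φ ∧ LocBounded φ ∧ Stable φ ∧ Tempered φ ∧
    (∃ C : ℝ, ∀ r, |φ r| ≤ C) ∧
    (∃ C ε R₀ : ℝ, 0 < ε ∧ ∀ r : ℝ, R₀ ≤ r → |φ r| ≤ C * r ^ (-3 - ε)) ∧
    ∃ β : ℝ, 0 < β ∧
      (∀ (L : ℝ) (N : ℕ), IntegrableOn (fun x : Fin N → E3 => exp (-β * U φ x)) (boxN L N)) ∧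
      (∀ z : ℝ, 0 < z → ∀ L : ℝ, Summable fun N => z ^ N * Z φ β L N) ∧
      ∃ P : ℝ → ℝ, (∀ z : ℝ, 0 < z →
          Tendsto (fun L : ℝ => (L ^ 3)⁻¹ * log (∑' N, z ^ N * Z φ β L N)) atTop (𝓝 (P z))) ∧
        ∃ z : ℝ, 0 < z ∧ ¬DifferentiableAt ℝ P z := by
  set φ := pot A0 (TT 0) with hφ
  have g : Good φ := good_TT
  have hb : ∀ r, |φ r| ≤ A0 + E0 / Vb 1 * 2 := fun r => by
    have h1 := (att_TT 0).nonneg r
    have h2 := TT_le r
    have h3 := core_nonneg A0_pos.le r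
    have h4 : core A0 r ≤ A0 := by unfold core; split_ifs <;> simp [A0_pos.le]
    rw [hφ, pot, abs_le]
    constructor <;> linarith
  refine ⟨φ, g.meas, fun _ _ _ => ⟨_, fun r _ => hb r⟩, g.stable,
    ⟨1, 1, 2, one_pos, one_pos, two_pos, fun r hr => (g.far r hr).trans (by positivity)⟩,
    ⟨_, hb⟩, ?_, 1, one_pos, g.integrable, fun z hz L => (g.grand hz L).1,
    fun z => pr φ (log z + φ 0 / 2), fun z hz => ?_, ?_⟩
  · obtain ⟨C, -, hC⟩ := TT_decay
    refine ⟨C, 1 / 64, 2, by norm_num, fun r hr => ?_⟩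
    rw [hφ, pot, core, if_neg (not_lt.2 hr), zero_sub, abs_neg, abs_of_nonneg ((att_TT 0).nonneg r)]
    exact hC r (by linarith)
  · simp only [(g.grand hz _).2, ← div_eq_inv_mul]
    exact g.tendsto _
  · obtain ⟨μ, hμ⟩ := kink_TT
    refine ⟨exp (μ - φ 0 / 2), exp_pos _, fun hd => hμ ?_⟩
    have h1 : DifferentiableAt ℝ (fun ν : ℝ => exp (ν - φ 0 / 2)) μ := by fun_prop
    have h2 := hd.comp μ h1
    simpa [Function.comp_def] using h2

end Vale.Agent.P171
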