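import Vale.Agent.P171.Gas

/-! Partition functions of pair interactions. -/

namespace Vale.Agent.P171

open MeasureTheory Finset Real
open scoped ENNReal Nat

variable {E : Type*}

/-- Cross energy of two configurations. -/
def W2 (f : E → E → ℝ) (m m' : Multiset E) : ℝ :=
  (m.map fun x => (m'.map fun y => f x y).sum).sum

/-- Full double sum of a kernel over a configuration, diagonal included. -/
def W (f : E → E → ℝ) (m : Multiset E) : ℝ := W2 f m m

theorem W_map {ι : Type*} (f : E → E → ℝ) (S : Finset ι) (x : ι → E) :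
    W f (S.val.map x) = ∑ i ∈ S, ∑ j ∈ S, f (x i) (x j) := by
  simp only [W, W2, Multiset.map_map, Function.comp_def]
  rfl

theorem W_cfg {N : ℕ} (f : E → E → ℝ) (x : Fin N → E) :
    W f (cfg x) = ∑ i, ∑ j, f (x i) (x j) := W_map f _ x

theorem W_add (f : E → E → ℝ) (m m' : Multiset E) :
    W f (m' + m) = W f m' + W f m + W2 f m m' + W2 f m' m := by
  simp only [W, W2, Multiset.map_add, Multiset.sum_add, Multiset.sum_map_add]
  ring

theorem W2_nonneg {f : E → E → ℝ} {m m' : Multiset E} (h : ∀ x ∈ m, ∀ y ∈ m', 0 ≤ f x y) :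
    0 ≤ W2 f m m' :=
  Multiset.sum_nonneg fun a ha => by
    obtain ⟨x, hx, rfl⟩ := Multiset.mem_map.1 ha
    exact Multiset.sum_nonneg fun b hb => by
      obtain ⟨y, hy, rfl⟩ := Multiset.mem_map.1 hb
      exact h x hx y hy

theorem W2_neg (f : E → E → ℝ) (m m' : Multiset E) :
    W2 (fun x y => -f x y) m m' = -W2 f m m' := by
  simp only [W2, Multiset.sum_map_neg]

theorem W2_nonpos {f : E → E → ℝ} {m m' : Multiset E} (h : ∀ x ∈ m, ∀ y ∈ m', f x y ≤ 0) :
    W2 f m m' ≤ 0 := by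
  have := W2_nonneg (f := fun x y => -f x y) fun x hx y hy => neg_nonneg.2 (h x hx y hy)
  rw [W2_neg] at this
  linarith

theorem W_add_fun (f g : E → E → ℝ) (m : Multiset E) :
    W (fun x y => f x y + g x y) m = W f m + W g m := by
  simp only [W, W2, Multiset.sum_map_add]

theorem W_sub_fun (f g : E → E → ℝ) (m : Multiset E) :
    W (fun x y => f x y - g x y) m = W f m - W g m := by
  simp only [W, W2, Multiset.sum_map_sub]

theorem W_mul_fun (c : ℝ) (f : E → E → ℝ) (m : Multiset E) :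
    W (fun x y => c * f x y) m = c * W f m := by
  simp only [W, W2, Multiset.sum_map_mul_left]

theorem W_const (c : ℝ) (m : Multiset E) : W (fun _ _ => c) m = c * (m.card : ℝ) ^ 2 := by
  simp [W, W2]; ring

theorem W_mono {f g : E → E → ℝ} {m : Multiset E} (h : ∀ x ∈ m, ∀ y ∈ m, f x y ≤ g x y) :
    W f m ≤ W g m := by
  have := W2_nonneg (f := fun x y => g x y - f x y) fun x hx y hy => sub_nonneg.2 (h x hx y hy)
  have h2 := W_sub_fun g f m
  rw [W] at h2
  linarith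

theorem W_comp {E' : Type*} (f : E' → E' → ℝ) (τ : E → E') (m : Multiset E) :
    W f (m.map τ) = W (fun x y => f (τ x) (τ y)) m := by
  simp only [W, W2, Multiset.map_map, Function.comp_def]

/-- Boltzmann weight. -/
noncomputable def wt (μ : ℝ) (f : E → E → ℝ) (m : Multiset E) : ℝ≥0∞ :=
  ENNReal.ofReal (exp (μ * m.card - W f m / 2))

variable [MeasurableSpace E]

theorem meas_wt (μ : ℝ) {f : E → E → ℝ} (hf : Measurable (Function.uncurry f)) :
    Meas (wt μ f) := by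
  intro N
  simp only [wt, card_cfg, W_cfg]
  refine ENNReal.measurable_ofReal.comp (measurable_exp.comp (measurable_const.sub
    (Measurable.div_const ?_ _)))
  exact Finset.measurable_sum _ fun i _ => Finset.measurable_sum _ fun j _ =>
    hf.comp (g := Function.uncurry f) (f := fun x : Fin N → E => (x i, x j))
      ((measurable_pi_apply i).prodMk (measurable_pi_apply j))

/-- Partition function in the region `A`. -/
noncomputable def Xs (ν : Measure E) (A : Set E) (μ : ℝ) (f : E → E → ℝ) : ℝ≥0∞ :=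
  Xi (ν.restrict A) (wt μ f)

/-- Its logarithm. -/
noncomputable def LX (ν : Measure E) (A : Set E) (μ : ℝ) (f : E → E → ℝ) : ℝ :=
  log (Xs ν A μ f).toReal

variable {ν : Measure E} {A B : Set E} {μ : ℝ} {f g : E → E → ℝ}

theorem one_le_Xs : 1 ≤ Xs ν A μ f := by
  have := le_Xi (ν := ν.restrict A) (H := wt μ f) 0
  simpa [wt, W, W2, Xs] using this

theorem tsum_exp {x : ℝ} (hx : 0 ≤ x) :
    ∑' n : ℕ, ((n ! : ℝ≥0∞))⁻¹ * ENNReal.ofReal x ^ n = ENNReal.ofReal (exp x) := by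
  rw [Real.exp_eq_exp_ℝ, ← (NormedSpace.expSeries_div_hasSum_exp x).tsum_eq,
    ENNReal.ofReal_tsum_of_nonneg (fun n => by positivity) (Real.summable_pow_div_factorial x)]
  refine tsum_congr fun n => ?_
  rw [ENNReal.ofReal_div_of_pos (by positivity), ENNReal.ofReal_pow hx, ENNReal.ofReal_natCast,
    div_eq_mul_inv, mul_comm]

theorem term_le (hA : MeasurableSet A) (hfin : ν A ≠ ∞)
    (hW : ∀ m : Multiset E, (∀ x ∈ m, x ∈ A) → 0 ≤ W f m) (n : ℕ) :
    (T (ν.restrict A))^[n] (wt μ f) 0 ≤ ENNReal.ofReal (exp μ * ν.real A) ^ n := by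
  have h1 := iter_mono (ν := ν.restrict A) (H := wt μ f)
    (G := fun _ => ENNReal.ofReal (exp μ) ^ n) (m := 0) (m₀ := 0) (ae_restrict_mem hA) n
    fun m hm hc => by
      rw [add_zero, wt, ← ENNReal.ofReal_pow (exp_pos _).le, ← exp_nat_mul, hc]
      exact ENNReal.ofReal_le_ofReal (exp_le_exp.2 (by linarith [hW m hm]))
  rw [iter_const] at h1
  refine h1.trans (le_of_eq ?_)
  simp only [Measure.restrict_apply_univ]
  rw [ENNReal.ofReal_mul (exp_pos _).le, mul_pow, ofReal_measureReal hfin]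

theorem Xs_le_exp (hA : MeasurableSet A) (hfin : ν A ≠ ∞)
    (hW : ∀ m : Multiset E, (∀ x ∈ m, x ∈ A) → 0 ≤ W f m) :
    Xs ν A μ f ≤ ENNReal.ofReal (exp (exp μ * ν.real A)) := by
  rw [← tsum_exp (by positivity)]
  exact ENNReal.tsum_le_tsum fun n => mul_le_mul_right (term_le hA hfin hW n) _

theorem Xs_eq (h : Xs ν A μ f ≠ ∞) : Xs ν A μ f = ENNReal.ofReal (exp (LX ν A μ f)) := by
  rw [LX, exp_log (ENNReal.toReal_pos (one_pos.trans_le one_le_Xs).ne' h),
    ENNReal.ofReal_toReal h]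

theorem LX_le {a : ℝ} (h : Xs ν A μ f ≤ ENNReal.ofReal (exp a)) : LX ν A μ f ≤ a := by
  have h1 : Xs ν A μ f ≠ ∞ := ne_top_of_le_ne_top ENNReal.ofReal_ne_top h
  rw [Xs_eq h1, ENNReal.ofReal_le_ofReal_iff (exp_pos _).le] at h
  exact exp_le_exp.1 h

theorem le_LX {a : ℝ} (h1 : Xs ν A μ f ≠ ∞) (h : ENNReal.ofReal (exp a) ≤ Xs ν A μ f) :
    a ≤ LX ν A μ f := by
  rw [Xs_eq h1, ENNReal.ofReal_le_ofReal_iff (exp_pos _).le] at h
  exact exp_le_exp.1 h

theorem Xs_ne_top (hA : MeasurableSet A) (hfin : ν A ≠ ∞)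
    (hW : ∀ m : Multiset E, (∀ x ∈ m, x ∈ A) → 0 ≤ W f m) : Xs ν A μ f ≠ ∞ :=
  ne_top_of_le_ne_top ENNReal.ofReal_ne_top (Xs_le_exp hA hfin hW)

theorem LX_nonneg (h : Xs ν A μ f ≠ ∞) : 0 ≤ LX ν A μ f :=
  le_LX h (by simpa using one_le_Xs)

theorem Xs_mono_set (h : A ⊆ B) : Xs ν A μ f ≤ Xs ν B μ f :=
  Xi_mono_measure (Measure.restrict_mono h le_rfl)

theorem Xs_mono {μ' c : ℝ} [SFinite ν] (hA : MeasurableSet A)
    (hg : Measurable (Function.uncurry g))
    (h : ∀ m : Multiset E, (∀ x ∈ m, x ∈ A) →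
      μ * m.card - W f m / 2 ≤ c + (μ' * m.card - W g m / 2)) :
    Xs ν A μ f ≤ ENNReal.ofReal (exp c) * Xs ν A μ' g := by
  rw [Xs, Xs, ← Xi_const_mul (meas_wt μ' hg)]
  refine Xi_mono (ae_restrict_mem hA) fun m hm => ?_
  rw [wt, wt, ← ENNReal.ofReal_mul (exp_pos _).le, ← exp_add]
  exact ENNReal.ofReal_le_ofReal (exp_le_exp.2 (h m hm))

theorem LX_mono {μ' c : ℝ} [SFinite ν] (hA : MeasurableSet A)
    (hg : Measurable (Function.uncurry g)) (hfin : Xs ν A μ' g ≠ ∞)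
    (h : ∀ m : Multiset E, (∀ x ∈ m, x ∈ A) →
      μ * m.card - W f m / 2 ≤ c + (μ' * m.card - W g m / 2)) :
    LX ν A μ f ≤ c + LX ν A μ' g := by
  refine LX_le ((Xs_mono hA hg h).trans (le_of_eq ?_))
  rw [Xs_eq hfin, ← ENNReal.ofReal_mul (exp_pos _).le, ← exp_add]

omit [MeasurableSpace E] in
theorem wt_add_le {m m' : Multiset E} (h1 : 0 ≤ W2 f m m') (h2 : 0 ≤ W2 f m' m) :
    wt μ f (m' + m) ≤ wt μ f m * wt μ f m' := by
  rw [wt, wt, wt, ← ENNReal.ofReal_mul (exp_pos _).le, ← exp_add, W_add, Multiset.card_add]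
  refine ENNReal.ofReal_le_ofReal (exp_le_exp.2 ?_)
  push_cast; linarith

omit [MeasurableSpace E] in
theorem le_wt_add {m m' : Multiset E} (h1 : W2 f m m' ≤ 0) (h2 : W2 f m' m ≤ 0) :
    wt μ f m * wt μ f m' ≤ wt μ f (m' + m) := by
  rw [wt, wt, wt, ← ENNReal.ofReal_mul (exp_pos _).le, ← exp_add, W_add, Multiset.card_add]
  refine ENNReal.ofReal_le_ofReal (exp_le_exp.2 ?_)
  push_cast; linarith

theorem Xs_empty : Xs ν ∅ μ f = 1 := by
  refine le_antisymm ?_ one_le_Xs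
  simpa using Xs_le_exp (ν := ν) (μ := μ) (f := f) MeasurableSet.empty (by simp) fun m hm => by
    rw [Multiset.eq_zero_of_forall_notMem fun x hx => hm x hx]; simp [W, W2]

theorem Xs_biUnion_le [SFinite ν] {κ : Type*} (s : Finset κ) {C : κ → Set E}
    (hC : ∀ k, MeasurableSet (C k)) (hd : Pairwise (Function.onFun Disjoint C))
    (hf : Measurable (Function.uncurry f))
    (h : ∀ k l, k ≠ l → ∀ x ∈ C k, ∀ y ∈ C l, 0 ≤ f x y) :
    Xs ν (⋃ k ∈ s, C k) μ f ≤ ∏ k ∈ s, Xs ν (C k) μ f := by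
  classical
  induction s using Finset.induction_on with
  | empty => simp [Xs_empty]
  | insert k s hk ih =>
    have hm : MeasurableSet (⋃ l ∈ s, C l) := s.measurableSet_biUnion fun l _ => hC l
    have hne : ∀ l ∈ s, k ≠ l := fun l hl h => hk (h ▸ hl)
    rw [set_biUnion_insert, prod_insert hk, Xs, Measure.restrict_union
      (Set.disjoint_iUnion₂_right.2 fun l hl => hd (hne l hl)) hm]
    refine (Xi_le_mul (ae_restrict_mem (hC k)) (ae_restrict_mem hm) (meas_wt μ hf)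
      (meas_wt μ hf) (meas_wt μ hf) fun m m' h1 h2 => wt_add_le
        (W2_nonneg fun x hx y hy => ?_) (W2_nonneg fun y hy x hx => ?_)).trans
      (mul_le_mul_right ih _)
    · obtain ⟨l, hl, hy'⟩ := Set.mem_iUnion₂.1 (h2 y hy)
      exact h k l (hne l hl) x (h1 x hx) y hy'
    · obtain ⟨l, hl, hy'⟩ := Set.mem_iUnion₂.1 (h2 y hy)
      exact h l k (hne l hl).symm y hy' x (h1 x hx)

theorem le_Xs_biUnion [SFinite ν] {κ : Type*} (s : Finset κ) {C : κ → Set E}
    (hC : ∀ k, MeasurableSet (C k)) (hd : Pairwise (Function.onFun Disjoint C))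
    (hf : Measurable (Function.uncurry f))
    (h : ∀ k l, k ≠ l → ∀ x ∈ C k, ∀ y ∈ C l, f x y ≤ 0) :
    ∏ k ∈ s, Xs ν (C k) μ f ≤ Xs ν (⋃ k ∈ s, C k) μ f := by
  classical
  induction s using Finset.induction_on with
  | empty => simp [Xs_empty]
  | insert k s hk ih =>
    have hm : MeasurableSet (⋃ l ∈ s, C l) := s.measurableSet_biUnion fun l _ => hC l
    have hne : ∀ l ∈ s, k ≠ l := fun l hl h => hk (h ▸ hl)
    rw [set_biUnion_insert, prod_insert hk, Xs, Xs, Measure.restrict_union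
      (Set.disjoint_iUnion₂_right.2 fun l hl => hd (hne l hl)) hm]
    refine (mul_le_mul_right ih _).trans
      (mul_le_Xi (ae_restrict_mem (hC k)) (ae_restrict_mem hm) (meas_wt μ hf)
      (meas_wt μ hf) (meas_wt μ hf) fun m m' h1 h2 => le_wt_add
        (W2_nonpos fun x hx y hy => ?_) (W2_nonpos fun y hy x hx => ?_))
    · obtain ⟨l, hl, hy'⟩ := Set.mem_iUnion₂.1 (h2 y hy)
      exact h k l (hne l hl) x (h1 x hx) y hy'
    · obtain ⟨l, hl, hy'⟩ := Set.mem_iUnion₂.1 (h2 y hy)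
      exact h l k (hne l hl).symm y hy' x (h1 x hx)

theorem Xs_map {E' : Type*} [MeasurableSpace E'] {τ : E → E'} {ν' : Measure E'} [SFinite ν']
    (hτ : MeasurePreserving τ ν ν') {A : Set E'} (hA : MeasurableSet A) {f : E' → E' → ℝ}
    (hf : Measurable (Function.uncurry f)) :
    Xs ν' A μ f = Xs ν (τ ⁻¹' A) μ fun x y => f (τ x) (τ y) := by
  rw [Xs, Xi_map (hτ.restrict_preimage hA) (meas_wt μ hf), Xs]
  congr 1
  funext m
  simp only [wt, W_comp, Multiset.card_map]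

theorem LX_holder [SFinite ν] {μ₀ μ₁ τ : ℝ} {g₀ g₁ : E → E → ℝ} (hA : MeasurableSet A)
    (h0 : Measurable (Function.uncurry g₀)) (h1 : Measurable (Function.uncurry g₁))
    (f0 : Xs ν A μ₀ g₀ ≠ ∞) (f1 : Xs ν A μ₁ g₁ ≠ ∞) (hτ0 : 0 ≤ τ) (hτ1 : τ ≤ 1)
    (h : ∀ m : Multiset E, (∀ x ∈ m, x ∈ A) → μ * m.card - W f m / 2 ≤
      (1 - τ) * (μ₀ * m.card - W g₀ m / 2) + τ * (μ₁ * m.card - W g₁ m / 2)) :
    Xs ν A μ f ≤ ENNReal.ofReal (exp ((1 - τ) * LX ν A μ₀ g₀ + τ * LX ν A μ₁ g₁)) := by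
  set a₀ := LX ν A μ₀ g₀ with ha₀
  set a₁ := LX ν A μ₁ g₁ with ha₁
  set S := (1 - τ) * a₀ + τ * a₁ with hS
  have p0 : 0 ≤ (1 - τ) * exp (S - a₀) := mul_nonneg (by linarith) (exp_pos _).le
  have p1 : 0 ≤ τ * exp (S - a₁) := mul_nonneg hτ0 (exp_pos _).le
  have key : Xs ν A μ f ≤ ENNReal.ofReal ((1 - τ) * exp (S - a₀)) * Xs ν A μ₀ g₀ +
      ENNReal.ofReal (τ * exp (S - a₁)) * Xs ν A μ₁ g₁ := by
    rw [Xs, Xs, Xs, ← Xi_const_mul (meas_wt μ₀ h0), ← Xi_const_mul (meas_wt μ₁ h1),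
      ← Xi_add_fun ((meas_wt μ₀ h0).const_mul _)]
    refine Xi_mono (ae_restrict_mem hA) fun m hm => ?_
    rw [wt, wt, wt, ← ENNReal.ofReal_mul p0, ← ENNReal.ofReal_mul p1,
      ← ENNReal.ofReal_add (by positivity) (by positivity)]
    refine ENNReal.ofReal_le_ofReal ?_
    have h2 := convexOn_exp.2 (Set.mem_univ (S - a₀ + (μ₀ * m.card - W g₀ m / 2)))
      (Set.mem_univ (S - a₁ + (μ₁ * m.card - W g₁ m / 2))) (by linarith : 0 ≤ 1 - τ) hτ0
      (by ring)
    simp only [smul_eq_mul, exp_add] at h2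
    refine le_trans (exp_le_exp.2 ?_) ((le_of_eq (exp_add _ _)).trans (h2.trans (le_of_eq ?_)))
    · have := h m hm
      rw [hS]; linarith
    · ring
  refine key.trans (le_of_eq ?_)
  rw [Xs_eq f0, Xs_eq f1, ← ha₀, ← ha₁, ← ENNReal.ofReal_mul p0, ← ENNReal.ofReal_mul p1,
    ← ENNReal.ofReal_add (by positivity) (by positivity), mul_assoc, mul_assoc, ← exp_add,
    ← exp_add]
  congr 1
  simp only [sub_add_cancel]; ring

theorem Xs_meanfield [SFinite ν] {ε V Tm P : ℝ} (hA : MeasurableSet A) (hfin : ν A ≠ ∞)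
    (hV : ν.real A = V) (hV0 : 0 < V) (hf : Measurable (Function.uncurry f))
    (hW : ∀ m : Multiset E, (∀ x ∈ m, x ∈ A) → 0 ≤ W (fun x y => f x y - ε / V) m)
    (hfW : ∀ m : Multiset E, (∀ x ∈ m, x ∈ A) → 0 ≤ W f m)
    (hT : exp (μ + 1) ≤ Tm) (hP0 : 0 ≤ P)
    (hP : ∀ t ∈ Set.Icc 0 Tm, LX ν A (μ + ε * t) f - ε * t ^ 2 * V / 2 ≤ P) :
    Xs ν A μ (fun x y => f x y - ε / V) ≤ ENNReal.ofReal ((Tm * V + 2) * exp P) := by
  have hT0 : 0 < Tm := (exp_pos _).trans_le hT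
  have hterm : ∀ n : ℕ, ((n ! : ℝ≥0∞))⁻¹ *
      (T (ν.restrict A))^[n] (wt μ fun x y => f x y - ε / V) 0 ≤
      (if n ∈ range (⌊Tm * V⌋₊ + 1) then ENNReal.ofReal (exp P) else 0) +
        ENNReal.ofReal (exp (-(Tm * V))) *
          (((n ! : ℝ≥0∞))⁻¹ * ENNReal.ofReal (exp (μ + 1) * V) ^ n) := by
    intro n
    split_ifs with hn
    · refine le_trans ?_ le_self_add
      have hn' : (n : ℝ) ≤ Tm * V :=
        (Nat.le_floor_iff (by positivity)).1 (Nat.lt_succ_iff.1 (mem_range.1 hn))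
      have ht : (n : ℝ) / V ∈ Set.Icc 0 Tm := ⟨by positivity, (div_le_iff₀ hV0).2 hn'⟩
      set t := (n : ℝ) / V with htdef
      have h1 := iter_mono (ν := ν.restrict A) (H := wt μ fun x y => f x y - ε / V)
        (G := fun m => ENNReal.ofReal (exp (-(ε * t ^ 2 * V / 2))) * wt (μ + ε * t) f m)
        (m := 0) (m₀ := 0) (ae_restrict_mem hA) n fun m _ hc => by
          rw [add_zero, wt, wt, ← ENNReal.ofReal_mul (exp_pos _).le, ← exp_add, W_sub_fun,
            W_const, hc, htdef]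
          refine ENNReal.ofReal_le_ofReal (exp_le_exp.2 (le_of_eq ?_))
          field_simp
          ring
      rw [iter_const_mul (meas_wt _ hf)] at h1
      refine (mul_le_mul_right h1 _).trans ?_
      rw [mul_left_comm]
      refine (mul_le_mul_right (le_Xi n) _).trans ?_
      change _ * Xs ν A (μ + ε * t) f ≤ _
      rw [Xs_eq (Xs_ne_top hA hfin hfW), ← ENNReal.ofReal_mul (exp_pos _).le, ← exp_add]
      exact ENNReal.ofReal_le_ofReal (exp_le_exp.2 (by linarith [hP t ht]))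
    · rw [zero_add, mul_left_comm]
      refine mul_le_mul_right ((term_le hA hfin hW n).trans ?_) _
      have hn' : Tm * V ≤ n := by
        have h2 : ⌊Tm * V⌋₊ + 1 ≤ n := not_lt.1 fun h => hn (mem_range.2 h)
        have h3 : ((⌊Tm * V⌋₊ + 1 : ℕ) : ℝ) ≤ n := by exact_mod_cast h2
        push_cast at h3
        linarith [Nat.lt_floor_add_one (Tm * V)]
      rw [hV, ← ENNReal.ofReal_pow (by positivity), ← ENNReal.ofReal_pow (by positivity),
        ← ENNReal.ofReal_mul (exp_pos _).le]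
      refine ENNReal.ofReal_le_ofReal ?_
      rw [mul_pow, mul_pow, ← exp_nat_mul, ← exp_nat_mul, ← mul_assoc, ← exp_add]
      exact mul_le_mul_of_nonneg_right (exp_le_exp.2 (by linarith)) (by positivity)
  refine (ENNReal.tsum_le_tsum hterm).trans ?_
  rw [ENNReal.tsum_add, ENNReal.tsum_mul_left, tsum_exp (by positivity),
    tsum_eq_sum (s := range (⌊Tm * V⌋₊ + 1)) fun n hn => if_neg hn,
    sum_congr rfl fun n hn => if_pos hn, sum_const, card_range, nsmul_eq_mul,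
    ← ENNReal.ofReal_natCast, ← ENNReal.ofReal_mul (Nat.cast_nonneg _),
    ← ENNReal.ofReal_mul (exp_pos _).le, ← ENNReal.ofReal_add (by positivity) (by positivity),
    ← exp_add]
  refine ENNReal.ofReal_le_ofReal ?_
  have h1 : exp (-(Tm * V) + exp (μ + 1) * V) ≤ 1 :=
    exp_le_one_iff.2 (by nlinarith)
  have h2 : 1 ≤ exp P := one_le_exp hP0
  have h3 : (⌊Tm * V⌋₊ : ℝ) ≤ Tm * V := Nat.floor_le (by positivity)
  push_cast
  nlinarith

end Vale.Agent.P171
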