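import Vale.Agent.P171.Kac

/-! The thermodynamic limit of the pressure. -/

namespace Vale.Agent.P171

open MeasureTheory Finset Real Filter Topology
open scoped ENNReal

/-- Potentials for which the pressure is obtained by superadditivity. -/
structure Good (φ : ℝ → ℝ) : Prop where
  meas : Measurable φ
  far : ∀ d, 2 ≤ d → φ d ≤ 0
  stab : ∀ m, 0 ≤ W (F φ) m

/-- Logarithm of the partition function of a box. -/
noncomputable def LB (φ : ℝ → ℝ) (μ L : ℝ) : ℝ := LX volume (box L) μ (F φ)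

/-- The pressure. -/
noncomputable def pr (φ : ℝ → ℝ) (μ : ℝ) : ℝ := ⨆ ℓ : ℝ, LB φ μ ℓ / (ℓ + 2) ^ 3

variable {φ : ℝ → ℝ} {μ : ℝ}

theorem Xs_cube (hφ : Measurable φ) (a : Fin 3 → ℝ) (ℓ : ℝ) :
    Xs volume (cube a ℓ) μ (F φ) = Xs volume (box ℓ) μ (F φ) := by
  rw [Xs_map (measurePreserving_add_left volume (WithLp.toLp 2 a : E3)) (meas_cube a ℓ)
    (meas_F hφ)]
  congr 1
  · ext x; simp [cube, box]
  · funext x y; simp [F]

theorem Good.fin (h : Good φ) (L : ℝ) : Xs volume (box L) μ (F φ) ≠ ∞ :=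
  Xs_ne_top (meas_box L) (vol_box_ne L) fun m _ => h.stab m

theorem Good.Xs_box (h : Good φ) (L : ℝ) :
    Xs volume (box L) μ (F φ) = ENNReal.ofReal (exp (LB φ μ L)) := Xs_eq (h.fin L)

theorem Good.LB_nonneg (h : Good φ) (L : ℝ) : 0 ≤ LB φ μ L := LX_nonneg (h.fin L)

theorem Good.LB_le (h : Good φ) {L : ℝ} (hL : 0 ≤ L) : LB φ μ L ≤ exp μ * L ^ 3 := by
  rw [← real_box hL]
  exact LX_le (Xs_le_exp (meas_box L) (vol_box_ne L) fun m _ => h.stab m)

theorem LB_neg {L : ℝ} (hL : L < 0) : LB φ μ L = 0 := by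
  have : box L = ∅ := Set.eq_empty_of_forall_notMem fun x hx => by
    linarith [(hx 0).1, (hx 0).2]
  simp [LB, LX, this, Xs_empty]

theorem Good.term_le (h : Good φ) (ℓ : ℝ) : LB φ μ ℓ / (ℓ + 2) ^ 3 ≤ exp μ := by
  rcases lt_or_ge ℓ 0 with hl | hl
  · rw [LB_neg hl, zero_div]; exact (exp_pos _).le
  · rw [div_le_iff₀ (by positivity)]
    exact (h.LB_le hl).trans (mul_le_mul_of_nonneg_left
      (pow_le_pow_left₀ hl (by linarith) 3) (exp_pos _).le)

theorem Good.pr_le_exp (h : Good φ) : pr φ μ ≤ exp μ := ciSup_le h.term_le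

theorem Good.LB_le_pr (h : Good φ) {ℓ : ℝ} (hl : 0 ≤ ℓ) : LB φ μ ℓ ≤ (ℓ + 2) ^ 3 * pr φ μ := by
  rw [← div_le_iff₀' (by positivity)]
  exact le_ciSup (f := fun ℓ : ℝ => LB φ μ ℓ / (ℓ + 2) ^ 3)
    ⟨exp μ, by rintro _ ⟨l, rfl⟩; exact h.term_le l⟩ ℓ

theorem Good.pr_nonneg (h : Good φ) : 0 ≤ pr φ μ := by
  have := (h.LB_nonneg 0).trans (h.LB_le_pr (μ := μ) le_rfl)
  norm_num at this
  exact this

theorem Good.super (h : Good φ) {ℓ L : ℝ} (hl : 0 ≤ ℓ) (n : ℕ) (hn : n * (ℓ + 2) ≤ L) :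
    (n : ℝ) ^ 3 * LB φ μ ℓ ≤ LB φ μ L := by
  set C : (Fin 3 → Fin n) → Set E3 := fun k => cube (fun i => (k i : ℕ) * (ℓ + 2)) ℓ with hC
  have hd : ∀ k l, k ≠ l → ∀ x ∈ C k, ∀ y ∈ C l, 2 ≤ dist x y := by
    intro k l hkl x hx y hy
    obtain ⟨i, hi⟩ := Function.ne_iff.1 hkl
    refine le_trans ?_ (coord_le_dist x y i)
    have h1 := hx i
    have h2 := hy i
    rcases lt_or_gt_of_ne hi with hi | hi
    · have : ((k i : ℕ) : ℝ) + 1 ≤ (l i : ℕ) := by exact_mod_cast hi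
      refine le_abs.2 (Or.inr ?_)
      nlinarith [h1.2, h2.1]
    · have : ((l i : ℕ) : ℝ) + 1 ≤ (k i : ℕ) := by exact_mod_cast hi
      refine le_abs.2 (Or.inl ?_)
      nlinarith [h1.1, h2.2]
  have h1 := le_Xs_biUnion (ν := volume) (μ := μ) univ (C := C) (fun k => meas_cube _ _)
    (fun k l hkl => Set.disjoint_left.2 fun x hx hy => by
      have := hd k l hkl x hx x hy
      norm_num at this)
    (meas_F h.meas) fun k l hkl x hx y hy => h.far _ (hd k l hkl x hx y hy)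
  have h2 : (⋃ k ∈ (univ : Finset (Fin 3 → Fin n)), C k) ⊆ box L :=
    Set.iUnion₂_subset fun k _ x hx i => by
      have h3 := hx i
      have h4 : ((k i : ℕ) : ℝ) + 1 ≤ n := by exact_mod_cast (k i).2
      have h5 : (0 : ℝ) ≤ (k i : ℕ) * (ℓ + 2) := by positivity
      constructor
      · linarith [h3.1]
      · nlinarith [h3.2]
  refine le_LX (h.fin L) (le_trans (le_of_eq ?_) (h1.trans (Xs_mono_set h2)))
  simp only [hC, Xs_cube h.meas, prod_const, h.Xs_box]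
  rw [← ENNReal.ofReal_pow (exp_pos _).le, ← exp_nat_mul]
  simp

theorem tendsto_cube (c d : ℝ) : Tendsto (fun L : ℝ => (c * L + d) ^ 3 / L ^ 3) atTop
    (𝓝 (c ^ 3)) := by
  have h1 : Tendsto (fun L : ℝ => (c + d / L) ^ 3) atTop (𝓝 ((c + 0) ^ 3)) :=
    (tendsto_const_nhds.add (tendsto_const_nhds.div_atTop tendsto_id)).pow 3
  rw [add_zero] at h1
  refine h1.congr' ((eventually_gt_atTop 0).mono fun L hL => ?_)
  field_simp

theorem Good.tendsto (h : Good φ) (μ : ℝ) :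
    Tendsto (fun L => LB φ μ L / L ^ 3) atTop (𝓝 (pr φ μ)) := by
  refine tendsto_order.2 ⟨fun a ha => ?_, fun a ha => ?_⟩
  · obtain ⟨ℓ, hl⟩ := exists_lt_of_lt_ciSup ha
    rcases lt_or_ge ℓ 0 with h0 | h0
    · rw [LB_neg h0, zero_div] at hl
      exact (eventually_gt_atTop 0).mono fun L hL =>
        hl.trans_le (div_nonneg (h.LB_nonneg L) (by positivity))
    · have h1 := (tendsto_cube (ℓ + 2)⁻¹ (-1)).mul_const (LB φ μ ℓ)
      rw [inv_pow, ← div_eq_inv_mul] at h1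
      filter_upwards [h1.eventually (lt_mem_nhds hl), eventually_ge_atTop (ℓ + 2)] with L h2 h3
      refine h2.trans_le ?_
      have hp : 0 < ℓ + 2 := by linarith
      have h4 := h.super (μ := μ) h0 ⌊L / (ℓ + 2)⌋₊
        ((le_div_iff₀ hp).1 (Nat.floor_le (div_nonneg (by linarith) hp.le)))
      rw [div_mul_eq_mul_div]
      refine div_le_div_of_nonneg_right (le_trans (mul_le_mul_of_nonneg_right
        (pow_le_pow_left₀ ?_ ?_ 3) (h.LB_nonneg ℓ)) h4) (pow_nonneg (by linarith) 3)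
      · rw [← div_eq_inv_mul]
        linarith [(one_le_div hp).2 h3]
      · rw [← div_eq_inv_mul]
        linarith [Nat.lt_floor_add_one (L / (ℓ + 2))]
  · have h1 := (tendsto_cube 1 2).mul_const (pr φ μ)
    simp only [one_pow, one_mul] at h1
    filter_upwards [h1.eventually (gt_mem_nhds ha), eventually_gt_atTop 0] with L h2 h3
    refine lt_of_le_of_lt ?_ h2
    rw [div_mul_eq_mul_div]
    exact div_le_div_of_nonneg_right (h.LB_le_pr h3.le) (by positivity)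

theorem pr_cmp {φ₀ φ₁ : ℝ → ℝ} (h : Good φ) (h₀ : Good φ₀) (h₁ : Good φ₁) {μ₀ μ₁ a b c d e : ℝ}
    (H : ∀ L, 1 ≤ L → LB φ μ L ≤ a * LB φ₀ μ₀ L + b * LB φ₁ μ₁ L + c * (L + d) ^ 3 + e) :
    pr φ μ ≤ a * pr φ₀ μ₀ + b * pr φ₁ μ₁ + c := by
  have h1 := ((((h₀.tendsto μ₀).const_mul a).add ((h₁.tendsto μ₁).const_mul b)).add
    ((tendsto_cube 1 d).const_mul c)).add
    ((tendsto_const_nhds (x := e)).div_atTop (tendsto_pow_atTop (α := ℝ) three_ne_zero))
  simp only [one_pow, one_mul, mul_one, add_zero] at h1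
  refine le_of_tendsto_of_tendsto (h.tendsto μ) h1 ((eventually_ge_atTop 1).mono fun L hL => ?_)
  refine (div_le_div_of_nonneg_right (H L hL) (by positivity)).trans (le_of_eq ?_)
  ring

theorem Good.convex (h : Good φ) : ConvexOn ℝ Set.univ (pr φ) := by
  refine ⟨convex_univ, fun x _ y _ a b ha hb hab => ?_⟩
  have := pr_cmp (μ := a • x + b • y) (μ₀ := x) (μ₁ := y) (a := a) (b := b) (c := 0) (d := 0)
    (e := 0) h h h fun L _ => by
      obtain rfl : a = 1 - b := by linarith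
      simp only [zero_mul, add_zero]
      refine LX_le (LX_holder (meas_box L) (meas_F h.meas) (meas_F h.meas) (h.fin L) (h.fin L)
        hb (by linarith) fun m _ => le_of_eq ?_)
      simp only [smul_eq_mul]; ring
  simpa using this

theorem pr_mono {φ' : ℝ → ℝ} (h : Good φ) (h' : Good φ') (H : ∀ d, φ' d ≤ φ d) :
    pr φ μ ≤ pr φ' μ := by
  have := pr_cmp (μ := μ) (μ₀ := μ) (μ₁ := μ) (a := 1) (b := 0) (c := 0) (d := 0)
    (e := 0) h h' h' fun L _ => by
      have := LX_mono (ν := volume) (μ := μ) (μ' := μ) (c := 0) (f := F φ) (meas_box L)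
        (meas_F h'.meas) (h'.fin L) fun m _ => by
          have := W_mono (f := F φ') (g := F φ) (m := m) fun x _ y _ => H _
          linarith
      simpa [LB] using this
  simpa using this

theorem LX_damp {A : Set E3} {f g : E3 → E3 → ℝ} {τ : ℝ} (hA : MeasurableSet A)
    (hfin : volume A ≠ ∞) (hg : Measurable (Function.uncurry g))
    (hW : ∀ m : Multiset E3, (∀ x ∈ m, x ∈ A) → 0 ≤ W g m) (h0 : 0 ≤ τ) (h1 : τ ≤ 1)
    (H : ∀ m : Multiset E3, (∀ x ∈ m, x ∈ A) → (1 - τ) * W g m ≤ W f m) :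
    Xs volume A μ f ≤ ENNReal.ofReal (exp (LX volume A μ g + τ * (exp μ * volume.real A))) := by
  have hz : ∀ m : Multiset E3, W (fun _ _ => (0 : ℝ)) m = 0 := fun m => by rw [W_const]; simp
  have hf0 : ∀ m : Multiset E3, (∀ x ∈ m, x ∈ A) → 0 ≤ W (fun _ _ => (0 : ℝ)) m :=
    fun m _ => (hz m).ge
  refine (LX_holder (μ₀ := μ) (μ₁ := μ) (g₁ := fun _ _ => 0) hA hg measurable_const
    (Xs_ne_top hA hfin hW) (Xs_ne_top hA hfin hf0) h0 h1 fun m hm => ?_).trans
    (ENNReal.ofReal_le_ofReal (exp_le_exp.2 ?_))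
  · rw [hz]; linarith [H m hm]
  · have h2 := LX_le (Xs_le_exp (μ := μ) hA hfin hf0)
    have h3 := LX_nonneg (Xs_ne_top (μ := μ) hA hfin hW)
    nlinarith

theorem pr_damp {φ' : ℝ → ℝ} (h : Good φ) (h' : Good φ') {τ : ℝ} (h0 : 0 ≤ τ) (h1 : τ ≤ 1)
    (H : ∀ m, (1 - τ) * W (F φ) m ≤ W (F φ') m) : pr φ' μ ≤ pr φ μ + τ * exp μ := by
  have := pr_cmp (μ := μ) (μ₀ := μ) (μ₁ := μ) (a := 1) (b := 0) (c := τ * exp μ) (d := 0)
    (e := 0) h' h h fun L hL => by
      have := LX_le (LX_damp (μ := μ) (meas_box L) (vol_box_ne L) (meas_F h.meas)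
        (fun m _ => h.stab m) h0 h1 fun m _ => H m)
      rw [real_box (by linarith)] at this
      simp only [LB]
      linarith
  simpa using this

end Vale.Agent.P171
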